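import Vale.Agent.P267.H158.Cyc

/-!
# P267, package COVER, part CV3: connectedness of the cyclic covers

`Primitive h`: `h = k • g` with `g` continuous forces `k = 1` or `k = -1`. If `X` is connected and
locally connected and `h` is primitive then `Cov h` and all `CovM h m` are connected.
-/

open Set Topology

namespace Vale.Agent.P267.H158

variable {X : Type*} [TopologicalSpace X]

/-- `h` is not a proper multiple of a continuous circle valued map -/
def Primitive (h : C(X, UnitAddCircle)) : Prop :=
  ∀ (k : ℤ) (g : C(X, UnitAddCircle)), (∀ x, h x = k • g x) → k = 1 ∨ k = -1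

/-- a cover of a locally connected space is locally connected -/
theorem locallyConnected_of_isLocalHomeomorph {Y : Type*} [TopologicalSpace Y]
    [LocallyConnectedSpace X] {p : Y → X} (hp : IsLocalHomeomorph p) :
    LocallyConnectedSpace Y := by
  let _ : ChartedSpace X Y := pullCS X hp
  exact ChartedSpace.locallyConnectedSpace X Y

/-- a cover of a locally compact space is locally compact -/
theorem locallyCompact_of_isLocalHomeomorph {Y : Type*} [TopologicalSpace Y]
    [LocallyCompactSpace X] {p : Y → X} (hp : IsLocalHomeomorph p) :
    LocallyCompactSpace Y := by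
  let _ : ChartedSpace X Y := pullCS X hp
  exact ChartedSpace.locallyCompactSpace X Y

namespace Cov

variable {h : C(X, UnitAddCircle)}

instance [LocallyConnectedSpace X] : LocallyConnectedSpace (Cov h) :=
  locallyConnected_of_isLocalHomeomorph isLocalHomeomorph_p

instance [LocallyCompactSpace X] : LocallyCompactSpace (Cov h) :=
  locallyCompact_of_isLocalHomeomorph isLocalHomeomorph_p

theorem shift_image_component (k : ℤ) (z : Cov h) :
    shift k '' connectedComponent z = connectedComponent (shift k z) := by
  have := (shift k : Cov h ≃ₜ Cov h).image_connectedComponentIn (s := univ) (x := z) (mem_univ z)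
  rwa [connectedComponentIn_univ, image_univ, (shift k).surjective.range_eq,
    connectedComponentIn_univ] at this

theorem shift_component_eq {k : ℤ} {z : Cov h} (hk : shift k z ∈ connectedComponent z) (j : ℤ) :
    shift (j + k) z ∈ connectedComponent (shift j z) := by
  rw [← shift_image_component, shift_add]
  exact mem_image_of_mem _ hk

/-- the stabiliser of a component -/
def stab (z : Cov h) : AddSubgroup ℤ where
  carrier := {k | shift k z ∈ connectedComponent z}
  zero_mem' := by
    change shift 0 z ∈ connectedComponent z
    rw [shift_zero]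
    exact mem_connectedComponent
  add_mem' := by
    intro j k hj hk
    have h1 := shift_component_eq hk j
    have h2 : connectedComponent (shift j z) = connectedComponent z :=
      (connectedComponent_eq hj).symm
    rw [h2] at h1
    exact h1
  neg_mem' := by
    intro k hk
    have h1 := shift_component_eq hk (-k)
    rw [neg_add_cancel, shift_zero] at h1
    have h2 : connectedComponent (shift (-k) z) = connectedComponent z := connectedComponent_eq h1
    change shift (-k) z ∈ connectedComponent z
    rw [← h2]
    exact mem_connectedComponent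

theorem mem_stab {z : Cov h} {k : ℤ} : k ∈ stab z ↔ shift k z ∈ connectedComponent z := Iff.rfl

/-- two points of one component over the same point differ by an element of the stabiliser -/
theorem mem_stab_of_mem {z w : Cov h} {k : ℤ} (hw : w ∈ connectedComponent z)
    (hk : shift k w ∈ connectedComponent z) : k ∈ stab z := by
  have h1 : connectedComponent w = connectedComponent z := (connectedComponent_eq hw).symm
  have h2 : connectedComponent (shift k w) = connectedComponent z := (connectedComponent_eq hk).symm
  rw [← shift_image_component, h1, shift_image_component] at h2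
  rw [mem_stab, ← h2]
  exact mem_connectedComponent

theorem shift_mem_of_mem_stab {z w : Cov h} {k : ℤ} (hw : w ∈ connectedComponent z)
    (hk : k ∈ stab z) : shift k w ∈ connectedComponent z := by
  have h2 : connectedComponent (shift k z) = connectedComponent z := (connectedComponent_eq hk).symm
  rw [← shift_image_component] at h2
  rw [← h2]
  exact mem_image_of_mem _ hw

theorem image_component_eq_univ [ConnectedSpace X] [LocallyConnectedSpace X] (z : Cov h) :
    p '' connectedComponent z = univ := by
  have hU : IsOpen (p '' connectedComponent z) := isOpenMap_p _ isOpen_connectedComponent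
  have hV : IsOpen (p '' connectedComponent z)ᶜ := by
    have h1 : (p '' connectedComponent z)ᶜ =
        p '' ⋃ w ∈ {w : Cov h | p w ∉ p '' connectedComponent z}, connectedComponent w := by
      apply Subset.antisymm
      · intro x hx
        obtain ⟨w, rfl⟩ := surjective_p (h := h) x
        exact ⟨w, mem_biUnion (show w ∈ {w : Cov h | _} from hx) mem_connectedComponent, rfl⟩
      · rintro _ ⟨v, hv, rfl⟩ ⟨u, hu, huv⟩
        simp only [mem_iUnion] at hv
        obtain ⟨w, hw, hvw⟩ := hv
        apply hw
        obtain ⟨k, rfl⟩ := p_eq_iff.1 huv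
        have h2 : connectedComponent u = connectedComponent z := (connectedComponent_eq hu).symm
        have h3 : connectedComponent (shift k u) = connectedComponent w :=
          (connectedComponent_eq hvw).symm
        have h4 : w ∈ shift k '' connectedComponent u := by
          rw [shift_image_component, h3]
          exact mem_connectedComponent
        obtain ⟨v', hv', rfl⟩ := h4
        exact ⟨v', by rwa [h2] at hv', rfl⟩
    rw [h1]
    exact isOpenMap_p _ (isOpen_biUnion fun w _ => isOpen_connectedComponent)
  have hclopen : IsClopen (p '' connectedComponent z) := ⟨isOpen_compl_iff.1 hV, hU⟩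
  exact hclopen.eq_univ ⟨p z, mem_image_of_mem _ mem_connectedComponent⟩

/-- the stabiliser is `d ℤ` and `h` is `d` times a continuous map -/
theorem exists_div [ConnectedSpace X] [LocallyConnectedSpace X] {z : Cov h} {d : ℤ} (hd : d ≠ 0)
    (hs : ∀ k ∈ stab z, d ∣ k) : ∃ g : C(X, UnitAddCircle), ∀ x, h x = d • g x := by
  have hsur : ∀ x : X, ∃ w ∈ connectedComponent z, p w = x := by
    intro x
    have : x ∈ p '' connectedComponent z := by
      rw [image_component_eq_univ]
      exact mem_univ x
    obtain ⟨w, hw, e⟩ := this
    exact ⟨w, hw, e⟩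
  choose σ hσ hpσ using hsur
  have hd' : (d : ℝ) ≠ 0 := by exact_mod_cast hd
  have key : ∀ w ∈ connectedComponent z, toC (f (σ (p w)) / d) = toC (f w / d) := by
    intro w hw
    obtain ⟨k, hk⟩ := p_eq_iff.1 (hpσ (p w))
    have h1 : k ∈ stab z := mem_stab_of_mem (hσ (p w)) (by rw [← hk]; exact hw)
    obtain ⟨j, rfl⟩ := hs k h1
    have h2 : f w = f (σ (p w)) + (d * j : ℤ) := by
      conv_lhs => rw [hk]
      simp
    rw [h2]
    push_cast
    rw [add_div, mul_div_cancel_left₀ _ hd', toC_add, toC_intCast, add_zero]
  refine ⟨⟨fun x => toC (f (σ x) / d), ?_⟩, ?_⟩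
  · rw [continuous_iff_continuousAt]
    intro x
    have h1 : connectedComponent z ∈ 𝓝 (σ x) := isOpen_connectedComponent.mem_nhds (hσ x)
    have h2 : Filter.Tendsto (fun x => toC (f (σ x) / d)) ((𝓝 (σ x)).map p)
        (𝓝 (toC (f (σ x) / d))) := by
      rw [Filter.tendsto_map'_iff]
      have h3 : Filter.Tendsto (fun w : Cov h => toC (f w / d)) (𝓝 (σ x))
          (𝓝 (toC (f (σ x) / d))) :=
        (continuous_toC.comp (continuous_f.div_const _)).continuousAt
      refine h3.congr' ?_
      filter_upwards [h1] with w hw
      exact (key w hw).symm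
    rw [isLocalHomeomorph_p.map_nhds_eq, hpσ] at h2
    exact h2
  · intro x
    change h x = d • toC (f (σ x) / d)
    rw [← toC_zsmul, mul_div_cancel₀ _ hd', toC_f, hpσ]

theorem connectedSpace [ConnectedSpace X] [LocallyConnectedSpace X] (hh : Primitive h) :
    ConnectedSpace (Cov h) := by
  obtain ⟨x⟩ := (inferInstance : Nonempty X)
  obtain ⟨z, -⟩ := surjective_p (h := h) x
  obtain ⟨d, hd⟩ := Int.subgroup_cyclic (stab z)
  have hmem : ∀ k, k ∈ stab z ↔ d ∣ k := by
    intro k
    rw [hd, AddSubgroup.mem_closure_singleton]
    constructor
    · rintro ⟨n, rfl⟩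
      exact ⟨n, by simp [mul_comm]⟩
    · rintro ⟨n, rfl⟩
      exact ⟨n, by simp [mul_comm]⟩
  have h1 : (1 : ℤ) ∈ stab z := by
    by_cases h0 : d = 0
    · obtain ⟨g, hg⟩ := exists_div (z := z) (d := 2) two_ne_zero (fun k hk => by
        rw [hmem, h0, zero_dvd_iff] at hk
        rw [hk]
        exact dvd_zero 2)
      rcases hh 2 g hg with h2 | h2 <;> omega
    · obtain ⟨g, hg⟩ := exists_div (z := z) h0 (fun k hk => (hmem k).1 hk)
      rcases hh d g hg with h2 | h2
      · rw [hmem, h2]
      · rw [hmem, h2]
        norm_num
  have h2 : ∀ k : ℤ, k ∈ stab z := by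
    intro k
    have := (stab z).zsmul_mem h1 k
    simpa using this
  have h3 : connectedComponent z = univ := by
    rw [eq_univ_iff_forall]
    intro w
    have : p w ∈ p '' connectedComponent z := by
      rw [image_component_eq_univ]
      exact mem_univ _
    obtain ⟨v, hv, hvw⟩ := this
    obtain ⟨k, rfl⟩ := p_eq_iff.1 hvw
    exact shift_mem_of_mem_stab hv (h2 k)
  exact connectedSpace_iff_connectedComponent.2 ⟨z, h3⟩

theorem nonempty [Nonempty X] : Nonempty (Cov h) := by
  obtain ⟨x⟩ := (inferInstance : Nonempty X)
  obtain ⟨z, -⟩ := surjective_p (h := h) x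
  exact ⟨z⟩

end Cov

theorem CovM.connectedSpace [ConnectedSpace X] [LocallyConnectedSpace X] {h : C(X, UnitAddCircle)}
    (hh : Primitive h) (m : ℕ) [NeZero m] : ConnectedSpace (CovM h m) := by
  have := Cov.connectedSpace hh
  exact Cov.surjective_toM.connectedSpace Cov.continuous_toM

instance {h : C(X, UnitAddCircle)} {m : ℕ} [NeZero m] [LocallyConnectedSpace X] :
    LocallyConnectedSpace (CovM h m) :=
  locallyConnected_of_isLocalHomeomorph CovM.isLocalHomeomorph_p

instance {h : C(X, UnitAddCircle)} {m : ℕ} [NeZero m] [LocallyCompactSpace X] :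
    LocallyCompactSpace (CovM h m) :=
  locallyCompact_of_isLocalHomeomorph CovM.isLocalHomeomorph_p

end Vale.Agent.P267.H158
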