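import Mathlib.Topology.Covering.AddCircle
import Mathlib.Topology.Instances.AddCircle.Real
import Mathlib.Topology.Maps.Proper.Basic
import Mathlib.Topology.Bases

/-!
# P267, package COVER, part CV2: fibre products of coverings

`FibProd q h` is the fibre product of `q : A → B` and `h : X → B`; if `q` is a covering map then so
is the projection to `X`.
-/

open Set Topology

namespace Vale.Agent.P267.H158

section

variable {X A B : Type*}

/-- the fibre product -/
def FibProd (q : A → B) (h : X → B) : Type _ := {z : X × A // q z.2 = h z.1}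

namespace FibProd

variable {q : A → B} {h : X → B}

/-- projection to `X` -/
def fst (z : FibProd q h) : X := z.1.1

/-- projection to `A` -/
def snd (z : FibProd q h) : A := z.1.2

/-- constructor -/
def mk (x : X) (a : A) (e : q a = h x) : FibProd q h := ⟨(x, a), e⟩

@[simp] theorem fst_mk (x : X) (a : A) (e : q a = h x) : fst (mk x a e) = x := rfl

@[simp] theorem snd_mk (x : X) (a : A) (e : q a = h x) : snd (mk x a e) = a := rfl

theorem prop (z : FibProd q h) : q (snd z) = h (fst z) := z.2

@[ext] theorem ext {z w : FibProd q h} (h1 : fst z = fst w) (h2 : snd z = snd w) : z = w :=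
  Subtype.ext (Prod.ext h1 h2)

variable [TopologicalSpace X] [TopologicalSpace A]

instance : TopologicalSpace (FibProd q h) :=
  inferInstanceAs (TopologicalSpace {z : X × A // q z.2 = h z.1})

theorem isEmbedding_val : IsEmbedding (fun z : FibProd q h => (fst z, snd z)) :=
  IsEmbedding.subtypeVal

@[continuity, fun_prop]
theorem continuous_fst : Continuous (fst : FibProd q h → X) :=
  _root_.continuous_fst.comp continuous_subtype_val

@[continuity, fun_prop]
theorem continuous_snd : Continuous (snd : FibProd q h → A) :=
  _root_.continuous_snd.comp continuous_subtype_val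

theorem continuous_iff {Z : Type*} [TopologicalSpace Z] {g : Z → FibProd q h} :
    Continuous g ↔ Continuous (fun z => fst (g z)) ∧ Continuous (fun z => snd (g z)) := by
  constructor
  · intro hg
    exact ⟨continuous_fst.comp hg, continuous_snd.comp hg⟩
  · rintro ⟨h1, h2⟩
    exact continuous_induced_rng.2 (h1.prodMk h2)

theorem continuous_mk {Z : Type*} [TopologicalSpace Z] {g1 : Z → X} {g2 : Z → A}
    (h1 : Continuous g1) (h2 : Continuous g2) (e : ∀ z, q (g2 z) = h (g1 z)) :
    Continuous (fun z => (mk (g1 z) (g2 z) (e z) : FibProd q h)) :=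
  continuous_iff.2 ⟨h1, h2⟩

instance [T2Space X] [T2Space A] : T2Space (FibProd q h) :=
  inferInstanceAs (T2Space {z : X × A // q z.2 = h z.1})

instance [SecondCountableTopology X] [SecondCountableTopology A] :
    SecondCountableTopology (FibProd q h) :=
  inferInstanceAs (SecondCountableTopology ({z : X × A | q z.2 = h z.1} : Set (X × A)))

variable [TopologicalSpace B]

theorem isClosedEmbedding [T2Space B] (hq : Continuous q) (hh : Continuous h) :
    IsClosedEmbedding (fun z : FibProd q h => (fst z, snd z)) := by
  refine ⟨isEmbedding_val, ?_⟩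
  have : range (fun z : FibProd q h => (fst z, snd z)) = {z : X × A | q z.2 = h z.1} := by
    ext z
    constructor
    · rintro ⟨w, rfl⟩
      exact w.2
    · intro hz
      exact ⟨⟨z, hz⟩, rfl⟩
  rw [this]
  exact isClosed_eq (hq.comp _root_.continuous_snd) (hh.comp _root_.continuous_fst)

theorem isProperMap_snd [T2Space B] [CompactSpace X] (hq : Continuous q) (hh : Continuous h) :
    IsProperMap (snd : FibProd q h → A) :=
  isProperMap_snd_of_compactSpace.comp (isClosedEmbedding hq hh).isProperMap

theorem isProperMap_fst [T2Space B] [CompactSpace A] (hq : Continuous q) (hh : Continuous h) :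
    IsProperMap (fst : FibProd q h → X) :=
  isProperMap_fst_of_compactSpace.comp (isClosedEmbedding hq hh).isProperMap

theorem compactSpace [T2Space B] [CompactSpace X] [CompactSpace A] (hq : Continuous q)
    (hh : Continuous h) : CompactSpace (FibProd q h) :=
  (isClosedEmbedding hq hh).compactSpace

omit [TopologicalSpace X] [TopologicalSpace A] [TopologicalSpace B] in
theorem surjective_fst (hq : Function.Surjective q) : Function.Surjective (fst : FibProd q h → X) :=
  fun x => ⟨mk x (hq (h x)).choose (hq (h x)).choose_spec, rfl⟩

theorem isCoveringMap_fst (hq : IsCoveringMap q) (hh : Continuous h) :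
    IsCoveringMap (fst : FibProd q h → X) := by
  intro x
  obtain ⟨I1, U, hU, hUo, hqU, H, hH⟩ := hq (h x)
  refine IsEvenlyCovered.to_isEvenlyCovered_preimage (I := q ⁻¹' {h x}) ?_
  refine ⟨I1, h ⁻¹' U, hU, hUo.preimage hh, (hUo.preimage hh).preimage continuous_fst, ?_, ?_⟩
  · refine
      { toFun := fun z => (⟨fst z.1, z.2⟩, (H ⟨snd z.1, ?_⟩).2)
        invFun := fun w => ⟨mk w.1.1 (H.symm (⟨h w.1.1, w.1.2⟩, w.2)).1 ?_, ?_⟩
        left_inv := ?_
        right_inv := ?_
        continuous_toFun := ?_
        continuous_invFun := ?_ }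
    · have : fst z.1 ∈ h ⁻¹' U := z.2
      rw [mem_preimage, prop z.1]
      exact this
    · have h1 := hH (H.symm (⟨h w.1.1, w.1.2⟩, w.2))
      rw [Homeomorph.apply_symm_apply] at h1
      exact h1.symm
    · exact w.1.2
    · rintro ⟨z, hz⟩
      have hz' : snd z ∈ q ⁻¹' U := by
        have : fst z ∈ h ⁻¹' U := hz
        rw [mem_preimage, prop z]
        exact this
      apply Subtype.ext
      apply ext
      · rfl
      · change (H.symm (⟨h (fst z), hz⟩, (H ⟨snd z, hz'⟩).2)).1 = snd z
        have h2 : (⟨h (fst z), hz⟩, (H ⟨snd z, hz'⟩).2) = H ⟨snd z, hz'⟩ := by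
          refine Prod.ext (Subtype.ext ?_) rfl
          rw [hH]
          exact (prop z).symm
        rw [h2, Homeomorph.symm_apply_apply]
    · rintro ⟨⟨y, hy⟩, i⟩
      refine Prod.ext rfl ?_
      change (H ⟨(H.symm (⟨h y, hy⟩, i)).1, _⟩).2 = i
      have : (⟨(H.symm (⟨h y, hy⟩, i)).1, (H.symm (⟨h y, hy⟩, i)).2⟩ : q ⁻¹' U) =
        H.symm (⟨h y, hy⟩, i) := rfl
      rw [this, Homeomorph.apply_symm_apply]
    · refine Continuous.prodMk ?_ ?_
      · exact Continuous.subtype_mk (continuous_fst.comp continuous_subtype_val) _
      · exact _root_.continuous_snd.comp (H.continuous.comp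
          (Continuous.subtype_mk (continuous_snd.comp continuous_subtype_val) _))
    · refine Continuous.subtype_mk ?_ _
      refine continuous_mk ?_ ?_ _
      · exact continuous_subtype_val.comp _root_.continuous_fst
      · refine continuous_subtype_val.comp (H.symm.continuous.comp ?_)
        refine Continuous.prodMk ?_ _root_.continuous_snd
        exact Continuous.subtype_mk (hh.comp (continuous_subtype_val.comp _root_.continuous_fst)) _
  · intro z
    rfl

end FibProd

end

end Vale.Agent.P267.H158
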