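import Vale.Agent.P267.H158.Pull
import Vale.Agent.P267.H158.Fib

/-!
# P267, package COVER, part CV2: the cyclic covers attached to a circle valued map

For `h : C(X, UnitAddCircle)`:
* `Cov h` is the set of pairs `(x, t)`, `t` a real number whose class is `h x`;
* `CovM h m` is the set of pairs `(x, z)`, `z` in the circle, with `m • z = h x`.
-/

open Set Topology

namespace Vale.Agent.P267.H158

variable {X : Type*} [TopologicalSpace X]

/-- the class of a real number -/
def toC (t : ℝ) : UnitAddCircle := (t : UnitAddCircle)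

theorem toC_def (t : ℝ) : toC t = (t : UnitAddCircle) := rfl

theorem continuous_toC : Continuous toC := AddCircle.continuous_mk' 1

@[simp] theorem toC_add (s t : ℝ) : toC (s + t) = toC s + toC t := AddCircle.coe_add 1 s t

@[simp] theorem toC_sub (s t : ℝ) : toC (s - t) = toC s - toC t := AddCircle.coe_sub 1 s t

@[simp] theorem toC_neg (s : ℝ) : toC (-s) = - toC s := AddCircle.coe_neg 1

@[simp] theorem toC_zero : toC 0 = 0 := AddCircle.coe_zero 1

@[simp] theorem toC_intCast (k : ℤ) : toC (k : ℝ) = 0 := by
  rw [toC_def, AddCircle.coe_eq_zero_iff]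
  exact ⟨k, by simp⟩

theorem toC_eq_zero_iff {t : ℝ} : toC t = 0 ↔ ∃ k : ℤ, (k : ℝ) = t := by
  rw [toC_def, AddCircle.coe_eq_zero_iff]
  simp

theorem toC_eq_iff {s t : ℝ} : toC s = toC t ↔ ∃ k : ℤ, s = t + k := by
  rw [← sub_eq_zero, ← toC_sub, toC_eq_zero_iff]
  constructor
  · rintro ⟨k, hk⟩
    exact ⟨k, by linarith⟩
  · rintro ⟨k, hk⟩
    exact ⟨k, by linarith⟩

theorem toC_zsmul (k : ℤ) (t : ℝ) : toC (k * t) = k • toC t := by
  rw [toC_def, toC_def, ← AddCircle.coe_zsmul, zsmul_eq_mul]

theorem toC_nsmul (k : ℕ) (t : ℝ) : toC (k * t) = k • toC t := by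
  rw [toC_def, toC_def, ← AddCircle.coe_nsmul, nsmul_eq_mul]

theorem surjective_toC : Function.Surjective toC := QuotientAddGroup.mk_surjective

theorem isCoveringMap_toC : IsCoveringMap toC := AddCircle.isCoveringMap_coe 1

theorem isLocalHomeomorph_toC : IsLocalHomeomorph toC := isCoveringMap_toC.isLocalHomeomorph

theorem isCoveringMap_nsmul (m : ℕ) [NeZero m] :
    IsCoveringMap (fun z : UnitAddCircle => m • z) :=
  (AddCircle.isAddQuotientCoveringMap_nsmul_of_ne_zero (1 : ℝ) m).isCoveringMap

theorem surjective_nsmul (m : ℕ) [NeZero m] :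
    Function.Surjective (fun z : UnitAddCircle => m • z) := by
  intro z
  obtain ⟨t, rfl⟩ := surjective_toC z
  refine ⟨toC (t / m), ?_⟩
  change m • toC (t / m) = toC t
  rw [← toC_nsmul, mul_div_cancel₀]
  exact_mod_cast NeZero.ne m

/-! ### the infinite cyclic cover -/

/-- the infinite cyclic cover of `X` attached to `h` -/
def Cov (h : C(X, UnitAddCircle)) : Type _ := FibProd toC h

namespace Cov

variable {h : C(X, UnitAddCircle)}

instance : TopologicalSpace (Cov h) := inferInstanceAs (TopologicalSpace (FibProd toC h))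

instance [T2Space X] : T2Space (Cov h) := inferInstanceAs (T2Space (FibProd toC h))

instance [SecondCountableTopology X] : SecondCountableTopology (Cov h) :=
  inferInstanceAs (SecondCountableTopology (FibProd toC h))

/-- the covering projection -/
def p (z : Cov h) : X := FibProd.fst z

/-- the height function -/
def f (z : Cov h) : ℝ := FibProd.snd z

/-- constructor -/
def mk (x : X) (t : ℝ) (e : toC t = h x) : Cov h := FibProd.mk x t e

@[simp] theorem p_mk (x : X) (t : ℝ) (e : toC t = h x) : p (mk x t e) = x := rfl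

@[simp] theorem f_mk (x : X) (t : ℝ) (e : toC t = h x) : f (mk x t e) = t := rfl

@[ext] theorem ext {z w : Cov h} (h1 : p z = p w) (h2 : f z = f w) : z = w := FibProd.ext h1 h2

theorem toC_f (z : Cov h) : toC (f z) = h (p z) := z.prop

theorem continuous_p : Continuous (p : Cov h → X) := FibProd.continuous_fst

theorem continuous_f : Continuous (f : Cov h → ℝ) := FibProd.continuous_snd

theorem continuous_iff {Z : Type*} [TopologicalSpace Z] {g : Z → Cov h} :
    Continuous g ↔ Continuous (fun z => p (g z)) ∧ Continuous (fun z => f (g z)) :=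
  FibProd.continuous_iff

theorem isCoveringMap_p : IsCoveringMap (p : Cov h → X) :=
  FibProd.isCoveringMap_fst isCoveringMap_toC h.continuous

theorem isLocalHomeomorph_p : IsLocalHomeomorph (p : Cov h → X) :=
  isCoveringMap_p.isLocalHomeomorph

theorem isOpenMap_p : IsOpenMap (p : Cov h → X) := isLocalHomeomorph_p.isOpenMap

theorem surjective_p : Function.Surjective (p : Cov h → X) :=
  FibProd.surjective_fst surjective_toC

theorem isProperMap_f [CompactSpace X] : IsProperMap (f : Cov h → ℝ) :=
  FibProd.isProperMap_snd continuous_toC h.continuous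

theorem isCompact_preimage_f [CompactSpace X] {K : Set ℝ} (hK : IsCompact K) :
    IsCompact ((f : Cov h → ℝ) ⁻¹' K) :=
  isProperMap_f.isCompact_preimage hK

theorem isCompact_slab [CompactSpace X] (a b : ℝ) : IsCompact {z : Cov h | a ≤ f z ∧ f z ≤ b} :=
  isCompact_preimage_f (isCompact_Icc (a := a) (b := b))

/-- the deck transformation by `k` -/
def shift (k : ℤ) : Cov h ≃ₜ Cov h where
  toFun z := mk (p z) (f z + k) (by rw [toC_add, toC_intCast, add_zero, toC_f])
  invFun z := mk (p z) (f z - k) (by rw [toC_sub, toC_intCast, sub_zero, toC_f])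
  left_inv z := ext rfl (by simp)
  right_inv z := ext rfl (by simp)
  continuous_toFun := continuous_iff.2
    ⟨continuous_p, (continuous_f.add continuous_const : Continuous fun z : Cov h => f z + k)⟩
  continuous_invFun := continuous_iff.2
    ⟨continuous_p, (continuous_f.sub continuous_const : Continuous fun z : Cov h => f z - k)⟩

@[simp] theorem p_shift (k : ℤ) (z : Cov h) : p (shift k z) = p z := rfl

@[simp] theorem f_shift (k : ℤ) (z : Cov h) : f (shift k z) = f z + k := rfl

theorem p_comp_shift (k : ℤ) : (p : Cov h → X) ∘ shift k = p := rfl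

theorem shift_add (j k : ℤ) (z : Cov h) : shift (j + k) z = shift j (shift k z) :=
  ext (by simp) (by simp; ring)

@[simp] theorem shift_zero (z : Cov h) : shift 0 z = z := ext (by simp) (by simp)

theorem shift_symm (k : ℤ) (z : Cov h) : (shift k).symm z = shift (-k) z := by
  rw [Homeomorph.symm_apply_eq, ← shift_add, add_neg_cancel, shift_zero]

theorem shift_neg_shift (k : ℤ) (z : Cov h) : shift (-k) (shift k z) = z := by
  rw [← shift_add, neg_add_cancel, shift_zero]

theorem shift_shift_neg (k : ℤ) (z : Cov h) : shift k (shift (-k) z) = z := by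
  rw [← shift_add, add_neg_cancel, shift_zero]

theorem shift_injective {j k : ℤ} {z : Cov h} (e : shift j z = shift k z) : j = k := by
  have := congrArg f e
  simpa using this

theorem shift_eq_self_iff {k : ℤ} {z : Cov h} : shift k z = z ↔ k = 0 := by
  constructor
  · intro e
    exact shift_injective (j := k) (k := 0) (z := z) (by rw [e, shift_zero])
  · rintro rfl
    exact shift_zero z

theorem p_eq_iff {z w : Cov h} : p z = p w ↔ ∃ k : ℤ, w = shift k z := by
  constructor
  · intro e
    have h1 : toC (f w) = toC (f z) := by rw [toC_f, toC_f, e]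
    obtain ⟨k, hk⟩ := toC_eq_iff.1 h1
    exact ⟨k, ext (by simp [e]) (by simpa using hk)⟩
  · rintro ⟨k, rfl⟩
    simp

/-- the generator of the deck group -/
def γ : Cov h ≃ₜ Cov h := shift 1

@[simp] theorem p_γ (z : Cov h) : p (γ z) = p z := rfl

@[simp] theorem f_γ (z : Cov h) : f (γ z) = f z + 1 := by simp [γ]

/-- the translates of a compact set by large shifts are disjoint from it -/
theorem exists_disjoint_shift {K L : Set (Cov h)} (hK : IsCompact K) (hL : IsCompact L) :
    ∃ N : ℕ, ∀ k : ℤ, (N : ℤ) ≤ |k| → Disjoint (shift k '' K) L := by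
  obtain ⟨a, ha⟩ := (hK.image continuous_f).isBounded.exists_norm_le
  obtain ⟨b, hb⟩ := (hL.image continuous_f).isBounded.exists_norm_le
  obtain ⟨N, hN⟩ := exists_nat_gt (a + b)
  refine ⟨N, fun k hk => ?_⟩
  rw [Set.disjoint_left]
  rintro _ ⟨z, hz, rfl⟩ hw
  have h1 := ha _ (mem_image_of_mem f hz)
  have h2 := hb _ (mem_image_of_mem f hw)
  rw [f_shift] at h2
  have h3 : (N : ℝ) ≤ |(k : ℝ)| := by exact_mod_cast hk
  have h4 : |(k : ℝ)| ≤ |f z + k| + |f z| := by
    have := abs_sub (f z + k) (f z)
    simpa using this
  rw [Real.norm_eq_abs] at h1 h2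
  linarith

end Cov

/-! ### the finite cyclic covers -/

/-- the `m`-fold cyclic cover of `X` attached to `h` -/
def CovM (h : C(X, UnitAddCircle)) (m : ℕ) : Type _ :=
  FibProd (fun z : UnitAddCircle => m • z) h

namespace CovM

variable {h : C(X, UnitAddCircle)} {m : ℕ}

instance : TopologicalSpace (CovM h m) :=
  inferInstanceAs (TopologicalSpace (FibProd (fun z : UnitAddCircle => m • z) h))

instance [T2Space X] : T2Space (CovM h m) :=
  inferInstanceAs (T2Space (FibProd (fun z : UnitAddCircle => m • z) h))

instance [SecondCountableTopology X] : SecondCountableTopology (CovM h m) :=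
  inferInstanceAs (SecondCountableTopology (FibProd (fun z : UnitAddCircle => m • z) h))

instance [CompactSpace X] : CompactSpace (CovM h m) :=
  FibProd.compactSpace (continuous_const_smul m) h.continuous

/-- the covering projection -/
def p (z : CovM h m) : X := FibProd.fst z

/-- the circle valued function -/
def c (z : CovM h m) : UnitAddCircle := FibProd.snd z

/-- constructor -/
def mk (x : X) (z : UnitAddCircle) (e : m • z = h x) : CovM h m := FibProd.mk x z e

@[simp] theorem p_mk (x : X) (z : UnitAddCircle) (e : m • z = h x) : p (mk x z e) = x := rfl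

@[simp] theorem c_mk (x : X) (z : UnitAddCircle) (e : m • z = h x) : c (mk x z e) = z := rfl

@[ext] theorem ext {z w : CovM h m} (h1 : p z = p w) (h2 : c z = c w) : z = w :=
  FibProd.ext h1 h2

theorem nsmul_c (z : CovM h m) : m • c z = h (p z) := z.prop

theorem continuous_p : Continuous (p : CovM h m → X) := FibProd.continuous_fst

theorem continuous_c : Continuous (c : CovM h m → UnitAddCircle) := FibProd.continuous_snd

theorem continuous_iff {Z : Type*} [TopologicalSpace Z] {g : Z → CovM h m} :
    Continuous g ↔ Continuous (fun z => p (g z)) ∧ Continuous (fun z => c (g z)) :=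
  FibProd.continuous_iff

theorem isCoveringMap_p [NeZero m] : IsCoveringMap (p : CovM h m → X) :=
  FibProd.isCoveringMap_fst (isCoveringMap_nsmul m) h.continuous

theorem isLocalHomeomorph_p [NeZero m] : IsLocalHomeomorph (p : CovM h m → X) :=
  isCoveringMap_p.isLocalHomeomorph

theorem surjective_p [NeZero m] : Function.Surjective (p : CovM h m → X) :=
  FibProd.surjective_fst (surjective_nsmul m)

/-- the circle valued map of the finite cover, as a bundled map -/
def cc (h : C(X, UnitAddCircle)) (m : ℕ) : C(CovM h m, UnitAddCircle) := ⟨c, continuous_c⟩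

@[simp] theorem cc_apply (z : CovM h m) : cc h m z = c z := rfl

/-- the one fold cover is `X` -/
def one (h : C(X, UnitAddCircle)) : CovM h 1 ≃ₜ X where
  toFun := p
  invFun x := mk x (h x) (one_smul ℕ (h x))
  left_inv z := ext rfl (by
    have := nsmul_c z
    rw [one_smul] at this
    simpa using this.symm)
  right_inv x := rfl
  continuous_toFun := continuous_p
  continuous_invFun := continuous_iff.2 ⟨continuous_id, h.continuous⟩

/-- the tower map -/
def tower {m k n : ℕ} (hn : n = m * k) (z : CovM h n) : CovM h m :=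
  mk (p z) (k • c z) (by rw [smul_smul, ← hn, nsmul_c])

@[simp] theorem p_tower {m k n : ℕ} (hn : n = m * k) (z : CovM h n) : p (tower hn z) = p z := rfl

@[simp] theorem c_tower {m k n : ℕ} (hn : n = m * k) (z : CovM h n) :
    c (tower hn z) = k • c z := rfl

theorem continuous_tower {m k n : ℕ} (hn : n = m * k) :
    Continuous (tower hn : CovM h n → CovM h m) :=
  continuous_iff.2 ⟨continuous_p, continuous_c.const_smul k⟩

end CovM

/-! ### the projection from the infinite cyclic cover to the finite ones -/

namespace Cov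

variable {h : C(X, UnitAddCircle)} {m : ℕ} [NeZero m]

theorem natCast_ne_zero' (m : ℕ) [NeZero m] : (m : ℝ) ≠ 0 := by exact_mod_cast NeZero.ne m

/-- the projection to the `m`-fold cover -/
noncomputable def toM (m : ℕ) [NeZero m] (z : Cov h) : CovM h m :=
  CovM.mk (p z) (toC (f z / m)) (by
    rw [← toC_nsmul, mul_div_cancel₀ _ (natCast_ne_zero' m), toC_f])

@[simp] theorem p_toM (z : Cov h) : CovM.p (toM m z) = p z := rfl

@[simp] theorem c_toM (z : Cov h) : CovM.c (toM m z) = toC (f z / m) := rfl

theorem continuous_toM : Continuous (toM m : Cov h → CovM h m) :=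
  CovM.continuous_iff.2 ⟨continuous_p, continuous_toC.comp (continuous_f.div_const _)⟩

theorem isLocalHomeomorph_toM : IsLocalHomeomorph (toM m : Cov h → CovM h m) :=
  IsLocalHomeomorph.of_comp (g := CovM.p) isLocalHomeomorph_p CovM.isLocalHomeomorph_p
    continuous_toM

theorem surjective_toM : Function.Surjective (toM m : Cov h → CovM h m) := by
  intro z
  obtain ⟨t, ht⟩ := surjective_toC (CovM.c z)
  refine ⟨mk (CovM.p z) (m * t) ?_, ?_⟩
  · rw [toC_nsmul, ht, CovM.nsmul_c]
  · refine CovM.ext rfl ?_
    rw [c_toM, f_mk, mul_div_cancel_left₀ _ (natCast_ne_zero' m), ht]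

theorem toM_eq_iff {z w : Cov h} : toM m z = toM m w ↔ ∃ k : ℤ, w = shift (m * k) z := by
  constructor
  · intro e
    have h1 : p z = p w := by rw [← p_toM (m := m) z, ← p_toM (m := m) w, e]
    have h2 : toC (f w / m) = toC (f z / m) := by rw [← c_toM (m := m), ← c_toM (m := m), e]
    obtain ⟨k, hk⟩ := toC_eq_iff.1 h2
    refine ⟨k, ext (by simp [h1]) ?_⟩
    have h3 := natCast_ne_zero' m
    field_simp at hk
    rw [f_shift]
    push_cast
    linarith
  · rintro ⟨k, rfl⟩
    refine CovM.ext (by simp) ?_
    have h3 := natCast_ne_zero' m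
    rw [c_toM, c_toM, f_shift]
    push_cast
    rw [add_div, mul_div_cancel_left₀ _ h3, toC_add, toC_intCast, add_zero]

theorem tower_toM {m k n : ℕ} [NeZero m] [NeZero n] (hn : n = m * k) (z : Cov h) :
    CovM.tower hn (toM n z) = toM m z := by
  refine CovM.ext rfl ?_
  have h1 := natCast_ne_zero' m
  have h2 := natCast_ne_zero' n
  rw [CovM.c_tower, c_toM, c_toM, ← toC_nsmul]
  congr 1
  have h3 : (n : ℝ) = m * k := by exact_mod_cast hn
  rw [h3] at h2 ⊢
  have h4 : (k : ℝ) ≠ 0 := right_ne_zero_of_mul h2
  field_simp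

/-- the infinite cyclic cover of `X` is also the one of each finite cover; the height function is
divided by `m` -/
noncomputable def covOfM (m : ℕ) [NeZero m] : Cov h ≃ₜ Cov (CovM.cc h m) where
  toFun z := mk (toM m z) (f z / m) (by
    rw [CovM.cc_apply, c_toM])
  invFun w := mk (CovM.p (p w)) (m * f w) (by
    rw [toC_nsmul, toC_f]
    exact CovM.nsmul_c (p w))
  left_inv z := by
    refine ext rfl ?_
    simp only [f_mk]
    exact mul_div_cancel₀ _ (natCast_ne_zero' m)
  right_inv w := by
    refine ext (CovM.ext rfl ?_) ?_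
    · simp only [p_mk, c_toM, f_mk]
      rw [mul_div_cancel_left₀ _ (natCast_ne_zero' m), toC_f]
      rfl
    · simp only [f_mk]
      rw [mul_div_cancel_left₀ _ (natCast_ne_zero' m)]
  continuous_toFun := continuous_iff.2 ⟨continuous_toM, continuous_f.div_const _⟩
  continuous_invFun := continuous_iff.2
    ⟨CovM.continuous_p.comp continuous_p, continuous_const.mul continuous_f⟩

theorem isCoveringMap_toM : IsCoveringMap (toM m : Cov h → CovM h m) :=
  (isCoveringMap_p (h := CovM.cc h m)).comp_homeomorph (covOfM m)

end Cov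

end Vale.Agent.P267.H158
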