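import Vale.Agent.P267.H158.Prim
import Mathlib.Topology.Connected.Clopen
import Mathlib.LinearAlgebra.FreeModule.PID
import Mathlib.LinearAlgebra.FreeModule.Finite.Basic
import Mathlib.GroupTheory.Finiteness
import Mathlib.Topology.Algebra.Order.Archimedean

/-!
# P267, package COVER, part CV4 (2): integral classes exist

If there is a closed one-form which is not exact then there is a smooth circle valued map whose
differential is not exact.
-/

open Set Topology Manifold Filter
open scoped ContDiff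

namespace Vale.Agent.P267.H158

section

variable {E : Type*} [NormedAddCommGroup E] [NormedSpace ℝ E]
variable {X : Type*} [TopologicalSpace X] [ChartedSpace E X]

/-- the values of a locally constant function on a compact set are finite in number -/
theorem finite_image_of_locally_const {β : Type*} {K : Set X} (hK : IsCompact K) {w : X → β}
    (hw : ∀ x ∈ K, ∀ᶠ y in 𝓝 x, w y = w x) : (w '' K).Finite := by
  obtain ⟨t, -, ht⟩ := hK.elim_nhds_subcover (fun x => {y | w y = w x}) hw
  refine (t.finite_toSet.image w).subset ?_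
  rintro _ ⟨x, hx, rfl⟩
  obtain ⟨z, hz, hxz⟩ := mem_iUnion₂.1 (ht hx)
  exact ⟨z, hz, (hxz : w x = w z).symm⟩

/-- a locally constant function on a preconnected set is constant -/
theorem eq_of_locally_const {β : Type*} {V : Set X} (hV : IsPreconnected V) {w : X → β}
    (hw : ∀ x ∈ V, ∀ᶠ y in 𝓝 x, w y = w x) {x y : X} (hx : x ∈ V) (hy : y ∈ V) : w x = w y := by
  refine hV.induction₂' (fun a b => w a = w b) (fun a ha => ?_) (fun a b c _ _ _ h1 h2 => ?_) hx hy
  · filter_upwards [mem_nhdsWithin_of_mem_nhds (hw a ha)] with b hb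
    exact ⟨hb.symm, hb⟩
  · exact h1.trans h2

theorem primAt_finset_sum {ι : Type*} (s : Finset ι) {θ : ι → CovF E X} {u : ι → X → ℝ} {x : X}
    (h : ∀ i ∈ s, PrimAt (θ i) (u i) x) (c : ι → ℝ) :
    PrimAt (fun y => ∑ i ∈ s, c i • θ i y) (fun y => ∑ i ∈ s, c i * u i y) x := by
  classical
  induction s using Finset.induction_on with
  | empty =>
    simp only [Finset.sum_empty]
    exact primAt_const 0 x
  | insert a s ha ih =>
    have h1 := (h a (Finset.mem_insert_self a s)).const_mul (c a)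
    have h2 := ih (fun i hi => h i (Finset.mem_insert_of_mem hi))
    have h3 := h1.add h2
    simp only [Finset.sum_insert ha]
    exact h3

/-- a good finite family of primitives of a closed form -/
structure Fam (θ : CovF E X) (ι : Type*) where
  /-- the open sets -/
  V : ι → Set X
  /-- the primitives -/
  u : ι → X → ℝ
  isOpen : ∀ i, IsOpen (V i)
  conn : ∀ i, IsPreconnected (V i)
  cover : ∀ x, ∃ i, x ∈ V i
  prim : ∀ i, ∀ x ∈ closure (V i), PrimAt θ (u i) x

theorem exists_fam [CompactSpace X] [T2Space X] [LocallyConnectedSpace X] {θ : CovF E X}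
    (h : LocExact θ) : ∃ t : Finset X, Nonempty (Fam θ t) := by
  have key : ∀ x : X, ∃ (V : Set X) (u : X → ℝ), IsOpen V ∧ IsPreconnected V ∧ x ∈ V ∧
      ∀ y ∈ closure V, PrimAt θ u y := by
    intro x
    obtain ⟨u, hu⟩ := h x
    obtain ⟨C, hC, hCc, hCs⟩ := exists_mem_nhds_isClosed_subset hu.eventually
    have h1 : interior C ∈ 𝓝 x := interior_mem_nhds.2 hC
    refine ⟨connectedComponentIn (interior C) x, u, isOpen_interior.connectedComponentIn,
      isPreconnected_connectedComponentIn, mem_connectedComponentIn (mem_of_mem_nhds h1), ?_⟩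
    intro y hy
    have h2 : closure (connectedComponentIn (interior C) x) ⊆ C :=
      hCc.closure_subset_iff.2 ((connectedComponentIn_subset _ _).trans interior_subset)
    exact hCs (h2 hy)
  choose V u hVo hVc hxV hprim using key
  obtain ⟨t, ht⟩ := CompactSpace.elim_nhds_subcover V (fun x => (hVo x).mem_nhds (hxV x))
  refine ⟨t, ⟨⟨fun i => V i, fun i => u i, fun i => hVo i, fun i => hVc i, ?_,
    fun i => hprim i⟩⟩⟩
  intro x
  have hx : x ∈ ⋃ y ∈ t, V y := by
    rw [ht]
    exact mem_univ x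
  obtain ⟨y, hy, hxy⟩ := mem_iUnion₂.1 hx
  exact ⟨⟨y, hy⟩, hxy⟩

namespace Fam

variable {θ : CovF E X} {ι : Type*} (F : Fam θ ι)

theorem prim' {i : ι} {x : X} (hx : x ∈ F.V i) : PrimAt θ (F.u i) x :=
  F.prim i x (subset_closure hx)

/-- all differences of the primitives -/
def diffs : Set ℝ := {c | ∃ i j : ι, ∃ x ∈ F.V i ∩ F.V j, c = F.u i x - F.u j x}

theorem mem_diffs {i j : ι} {x : X} (hi : x ∈ F.V i) (hj : x ∈ F.V j) :
    F.u i x - F.u j x ∈ F.diffs := ⟨i, j, x, ⟨hi, hj⟩, rfl⟩

theorem finite_diffs [IsManifold 𝓘(ℝ, E) ∞ X] [CompactSpace X] [Finite ι] : F.diffs.Finite := by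
  have h1 : ∀ i j : ι, ((fun x => F.u i x - F.u j x) '' (closure (F.V i) ∩ closure (F.V j))).Finite
      := by
    intro i j
    refine finite_image_of_locally_const (isClosed_closure.inter isClosed_closure).isCompact ?_
    rintro x ⟨hi, hj⟩
    exact (F.prim i x hi).eventually_sub_eq (F.prim j x hj)
  refine (Set.finite_iUnion fun i => Set.finite_iUnion fun j => h1 i j).subset ?_
  rintro _ ⟨i, j, x, ⟨hi, hj⟩, rfl⟩
  exact mem_iUnion₂.2 ⟨i, j, x, ⟨subset_closure hi, subset_closure hj⟩, rfl⟩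

/-- differences of primitives are locally constant -/
theorem eventually_diff [IsManifold 𝓘(ℝ, E) ∞ X] {i j : ι} {x : X} (hi : x ∈ F.V i)
    (hj : x ∈ F.V j) : ∀ᶠ y in 𝓝 x, F.u i y - F.u j y = F.u i x - F.u j x :=
  (F.prim' hi).eventually_sub_eq (F.prim' hj)

end Fam

/-- a continuous lift of a smooth circle valued map is a primitive of its differential -/
theorem IsDiffC.primAt_of_lift {θ : CovF E X} {g : X → UnitAddCircle} (h : IsDiffC g θ) {x : X}
    {v : X → ℝ} (hv : ContinuousAt v x) (hg : ∀ᶠ y in 𝓝 x, g y = toC (v y)) : PrimAt θ v x := by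
  obtain ⟨u, hu, hgu⟩ := h x
  have h1 : ∀ᶠ y in 𝓝 x, v y - u y = v x - u x := by
    refine eventually_sub_eq_of_toC_eq hv hu.continuousAt ?_
    filter_upwards [hg, hgu] with y hy hy'
    rw [← hy, hy']
  refine (hu.add_const (v x - u x)).congr ?_
  filter_upwards [h1] with y hy
  linarith

/-- integral classes exist -/
theorem exists_isDiffC_not_exact [IsManifold 𝓘(ℝ, E) ∞ X] [FiniteDimensional ℝ E]
    [CompactSpace X] [T2Space X] {θ : CovF E X} (h : LocExact θ) (hne : ¬ Exact θ) :
    ∃ (g : X → UnitAddCircle) (θ' : CovF E X), IsDiffC g θ' ∧ ¬ Exact θ' := by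
  classical
  have : LocallyConnectedSpace X := ChartedSpace.locallyConnectedSpace E X
  obtain ⟨t, ⟨F⟩⟩ := exists_fam h
  have hfin := F.finite_diffs
  -- the group of differences
  let Q : AddSubgroup ℝ := AddSubgroup.closure F.diffs
  have hQfg : AddGroup.FG Q := by
    rw [AddGroup.fg_iff_addSubgroup_fg, AddSubgroup.fg_iff]
    exact ⟨F.diffs, rfl, hfin⟩
  have : Module.Finite ℤ Q := Module.Finite.iff_addGroup_fg.2 hQfg
  have : Module.Free ℤ Q := Module.free_of_finite_type_torsion_free'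
  let b := Module.finBasis ℤ Q
  have hmem : ∀ {i j : t} {x : X}, x ∈ F.V i → x ∈ F.V j → F.u i x - F.u j x ∈ Q :=
    fun hi hj => AddSubgroup.subset_closure (F.mem_diffs hi hj)
  let φ : Fin (Module.finrank ℤ Q) → ℝ → ℤ := fun s c =>
    if hc : c ∈ Q then b.repr ⟨c, hc⟩ s else 0
  have hφ : ∀ s c (hc : c ∈ Q), φ s c = b.repr ⟨c, hc⟩ s := fun s c hc => dif_pos hc
  have hφsub : ∀ s c c', c ∈ Q → c' ∈ Q → φ s (c - c') = φ s c - φ s c' := by
    intro s c c' hc hc'
    rw [hφ s _ (Q.sub_mem hc hc'), hφ s _ hc, hφ s _ hc']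
    have : (⟨c - c', Q.sub_mem hc hc'⟩ : Q) = ⟨c, hc⟩ - ⟨c', hc'⟩ := rfl
    rw [this, map_sub]
    rfl
  have hφsum : ∀ c, c ∈ Q → ∑ s, (b s : ℝ) * (φ s c : ℝ) = c := by
    intro c hc
    have h1 := b.sum_repr ⟨c, hc⟩
    have h2 := congrArg (Subtype.val : Q → ℝ) h1
    rw [AddSubgroup.val_finsetSum] at h2
    simp only [AddSubgroup.coe_zsmul, zsmul_eq_mul] at h2
    refine Eq.trans (Finset.sum_congr rfl fun s _ => ?_) h2
    rw [hφ s c hc, mul_comm]
  -- the partition of unity
  obtain ⟨ρ, hρ⟩ := SmoothPartitionOfUnity.exists_isSubordinate 𝓘(ℝ, E) isClosed_univ F.V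
    F.isOpen (fun x _ => mem_iUnion.2 (F.cover x))
  have hρ1 : ∀ x, ∑ j, ρ j x = 1 := by
    intro x
    have := ρ.sum_eq_one (mem_univ x)
    rwa [finsum_eq_sum_of_fintype] at this
  have hρ0 : ∀ j x, x ∉ F.V j → ∀ᶠ y in 𝓝 x, ρ j y = 0 := by
    intro j x hx
    have h1 : x ∉ tsupport (ρ j) := fun h => hx (hρ j h)
    have h2 := (isClosed_tsupport (ρ j)).isOpen_compl.mem_nhds h1
    filter_upwards [h2] with y hy
    exact image_eq_zero_of_notMem_tsupport hy
  -- the lifts
  let us : Fin (Module.finrank ℤ Q) → t → X → ℝ := fun s i x =>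
    ∑ j, ρ j x * (φ s (F.u i x - F.u j x) : ℝ)
  have hus1 : ∀ s i x, x ∈ F.V i → ∀ᶠ y in 𝓝 x, us s i y =
      ∑ j, ρ j y * (φ s (F.u i x - F.u j x) : ℝ) := by
    intro s i x hx
    have h1 : ∀ j : t, ∀ᶠ y in 𝓝 x, ρ j y * (φ s (F.u i y - F.u j y) : ℝ) =
        ρ j y * (φ s (F.u i x - F.u j x) : ℝ) := by
      intro j
      by_cases hj : x ∈ F.V j
      · filter_upwards [F.eventually_diff hx hj] with y hy
        rw [hy]
      · filter_upwards [hρ0 j x hj] with y hy
        rw [hy, zero_mul, zero_mul]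
    filter_upwards [eventually_all.2 h1] with y hy
    exact Finset.sum_congr rfl fun j _ => hy j
  have hus2 : ∀ s i x, x ∈ F.V i → ContMDiffAt 𝓘(ℝ, E) 𝓘(ℝ, ℝ) ∞ (us s i) x := by
    intro s i x hx
    have h1 : ContMDiffAt 𝓘(ℝ, E) 𝓘(ℝ, ℝ) ∞
        (fun y => ∑ j, ρ j y * (φ s (F.u i x - F.u j x) : ℝ)) x := by
      refine ContMDiffAt.sum fun j _ => ?_
      exact ((ρ j).contMDiff.contMDiffAt).mul contMDiffAt_const
    exact h1.congr_of_eventuallyEq (hus1 s i x hx)
  have hus3 : ∀ s i k x, x ∈ F.V i → x ∈ F.V k →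
      us s i x = us s k x + (φ s (F.u i x - F.u k x) : ℝ) := by
    intro s i k x hi hk
    have h1 : ∀ j, ρ j x * (φ s (F.u i x - F.u j x) : ℝ) =
        ρ j x * (φ s (F.u k x - F.u j x) : ℝ) + ρ j x * (φ s (F.u i x - F.u k x) : ℝ) := by
      intro j
      by_cases hj : x ∈ F.V j
      · have h2 : F.u i x - F.u k x = (F.u i x - F.u j x) - (F.u k x - F.u j x) := by ring
        rw [h2, hφsub s _ _ (hmem hi hj) (hmem hk hj)]
        push_cast
        ring
      · rw [(hρ0 j x hj).self_of_nhds]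
        ring
    change ∑ j, ρ j x * (φ s (F.u i x - F.u j x) : ℝ) = _
    rw [Finset.sum_congr rfl fun j _ => h1 j, Finset.sum_add_distrib, ← Finset.sum_mul, hρ1,
      one_mul]
  choose idx hidx using F.cover
  let g : Fin (Module.finrank ℤ Q) → X → UnitAddCircle := fun s x => toC (us s (idx x) x)
  have hg : ∀ s i x, x ∈ F.V i → g s x = toC (us s i x) := by
    intro s i x hx
    change toC (us s (idx x) x) = _
    rw [hus3 s (idx x) i x (hidx x) hx, toC_add, toC_intCast, add_zero]
  have hgsm : ∀ s, SmoothC (E := E) (g s) := by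
    intro s x
    refine ⟨us s (idx x), ?_, ?_⟩
    · filter_upwards [(F.isOpen (idx x)).mem_nhds (hidx x)] with y hy
      exact hus2 s _ y hy
    · filter_upwards [(F.isOpen (idx x)).mem_nhds (hidx x)] with y hy
      exact hg s _ y hy
  have hgd : ∀ s, ∃ θs : CovF E X, IsDiffC (g s) θs := fun s => (hgsm s).exists_isDiffC
  choose θs hθs using hgd
  by_contra hcon
  push Not at hcon
  have hex : ∀ s, Exact (θs s) := fun s => hcon _ _ (hθs s)
  apply hne
  -- the sum
  have hsum : Exact (fun y => ∑ s, (b s : ℝ) • θs s y) := by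
    choose vs hvs using hex
    exact ⟨_, fun x => primAt_finset_sum Finset.univ (fun s _ => hvs s x) (fun s => (b s : ℝ))⟩
  have hdiff : Exact (fun y => θ y - ∑ s, (b s : ℝ) • θs s y) := by
    refine ⟨fun x => ∑ j, ρ j x * F.u j x, fun x => ?_⟩
    have hi := hidx x
    have h1 : PrimAt (fun y => θ y - ∑ s, (b s : ℝ) • θs s y)
        (fun y => F.u (idx x) y - ∑ s, (b s : ℝ) * us s (idx x) y) x := by
      refine (F.prim' hi).sub ?_
      refine primAt_finset_sum Finset.univ (fun s _ => ?_) (fun s => (b s : ℝ))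
      refine (hθs s).primAt_of_lift (hus2 s _ x hi).continuousAt ?_
      filter_upwards [(F.isOpen (idx x)).mem_nhds hi] with y hy
      exact hg s _ y hy
    refine h1.congr ?_
    filter_upwards [(F.isOpen (idx x)).mem_nhds hi] with y hy
    have h2 : ∑ s, (b s : ℝ) * us s (idx x) y =
        ∑ j, ρ j y * ∑ s, (b s : ℝ) * (φ s (F.u (idx x) y - F.u j y) : ℝ) := by
      simp only [us, Finset.mul_sum]
      rw [Finset.sum_comm]
      refine Finset.sum_congr rfl fun j _ => Finset.sum_congr rfl fun s _ => ?_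
      ring
    have h3 : ∀ j, ρ j y * ∑ s, (b s : ℝ) * (φ s (F.u (idx x) y - F.u j y) : ℝ) =
        ρ j y * (F.u (idx x) y - F.u j y) := by
      intro j
      by_cases hj : y ∈ F.V j
      · rw [hφsum _ (hmem hy hj)]
      · rw [(hρ0 j y hj).self_of_nhds, zero_mul, zero_mul]
    rw [h2, Finset.sum_congr rfl fun j _ => h3 j]
    simp only [mul_sub, Finset.sum_sub_distrib]
    rw [← Finset.sum_mul, hρ1]
    ring
  refine (hdiff.add hsum).congr fun y => ?_
  rw [sub_add_cancel]

end

end Vale.Agent.P267.H158
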