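import Vale.Agent.P267.H158.Fam
import Vale.Agent.P267.H158.Conn

/-!
# P267, package COVER, part CV4 (3): the primitive circle valued map

If the space of closed one-forms modulo exact ones is one dimensional then there is a primitive
smooth circle valued map `h`, and every smooth circle valued map is `k • h + toC v`.
-/

open Set Topology Manifold Filter
open scoped ContDiff

namespace Vale.Agent.P267.H158

theorem exists_small_lift (z : UnitAddCircle) : ∃ t : ℝ, toC t = z ∧ |t| = ‖z‖ := by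
  obtain ⟨s, rfl⟩ := surjective_toC z
  refine ⟨s - round s, ?_, ?_⟩
  · rw [toC_sub, toC_intCast, sub_zero]
  · rw [toC_def, UnitAddCircle.norm_eq]

theorem norm_toC_le (t : ℝ) : ‖toC t‖ ≤ |t| := by
  rw [toC_def, UnitAddCircle.norm_eq]
  have := round_le t 0
  simpa using this

section

variable {E : Type*} [NormedAddCommGroup E] [NormedSpace ℝ E]
variable {X : Type*} [TopologicalSpace X] [ChartedSpace E X]

/-- a circle valued map with small values has an exact differential -/
theorem IsDiffC.exact_of_norm_lt {θ : CovF E X} {g : X → UnitAddCircle} (h : IsDiffC g θ)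
    (hg : ∀ x, ‖g x‖ < 1 / 4) : Exact θ := by
  choose w hw hwn using fun x => exists_small_lift (g x)
  refine ⟨w, fun x => ?_⟩
  have hc := h.continuous
  obtain ⟨v, hv, hgv⟩ := h x
  have h1 : ContinuousAt (fun y => v y + (w x - v x)) x := hv.continuousAt.add continuousAt_const
  have hx4 : |w x| < 1 / 4 := by rw [hwn]; exact hg x
  have h2 : ∀ᶠ y in 𝓝 x, |v y + (w x - v x)| < 1 / 4 := by
    have h3 : |v x + (w x - v x)| < 1 / 4 := by
      have : v x + (w x - v x) = w x := by ring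
      rwa [this]
    exact (h1.abs).eventually (gt_mem_nhds h3)
  obtain ⟨k, hk⟩ : ∃ k : ℤ, w x = v x + k := by
    refine toC_eq_iff.1 ?_
    rw [hw, hgv.self_of_nhds]
  have h3 : ∀ᶠ y in 𝓝 x, w y = v y + (w x - v x) := by
    filter_upwards [h2, hgv] with y hy hgy
    have h4 : toC (w y) = toC (v y + (w x - v x)) := by
      rw [hw, hgy, hk]
      simp
    obtain ⟨j, hj⟩ := toC_eq_iff.1 h4
    have h5 : |w y| < 1 / 4 := by rw [hwn]; exact hg y
    have h6 : |(j : ℝ)| < 1 := by
      have h7 : (j : ℝ) = w y - (v y + (w x - v x)) := by linarith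
      rw [h7]
      have h8 := abs_sub (w y) (v y + (w x - v x))
      linarith
    have h9 : |j| < 1 := by exact_mod_cast h6
    rw [Int.abs_lt_one_iff.1 h9] at hj
    simpa using hj
  exact (hv.add_const (w x - v x)).congr h3

/-- the difference of a circle valued map and the class of a primitive of its differential is
locally constant -/
theorem IsDiffC.eventually_sub_toC [IsManifold 𝓘(ℝ, E) ∞ X] {θ : CovF E X}
    {g : X → UnitAddCircle} (h : IsDiffC g θ) {x : X} {u : X → ℝ} (hu : PrimAt θ u x) :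
    ∀ᶠ y in 𝓝 x, g y - toC (u y) = g x - toC (u x) := by
  obtain ⟨v, hv, hgv⟩ := h x
  have h1 := hv.eventually_sub_eq hu
  have h2 := hgv.self_of_nhds
  filter_upwards [hgv, h1] with y hy hy'
  rw [hy, h2, ← toC_sub, ← toC_sub, hy']

theorem IsDiffC.eventually_const [IsManifold 𝓘(ℝ, E) ∞ X] {g : X → UnitAddCircle}
    (h : IsDiffC g (0 : CovF E X)) (x : X) : ∀ᶠ y in 𝓝 x, g y = g x := by
  have := h.eventually_sub_toC (primAt_const 0 x)
  simpa using this

theorem primAt_smul_fam {θ : CovF E X} {u : X → ℝ} {x : X} (hu : PrimAt θ u x) (c : ℝ) :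
    PrimAt (c • θ) (fun y => c * u y) x :=
  (hu.const_mul c).congr_form (Eventually.of_forall fun _ => rfl)

/-- circle valued maps with differential `c • θ` oscillate by at most `C * |c|` -/
theorem exists_osc_bound [IsManifold 𝓘(ℝ, E) ∞ X] [CompactSpace X] [T2Space X] [ConnectedSpace X] {θ : CovF E X}
    (h : LocExact θ) (x₀ : X) : ∃ C : ℝ, 0 ≤ C ∧ ∀ (c : ℝ) (g : X → UnitAddCircle),
      IsDiffC g (c • θ) → ∀ x, ‖g x - g x₀‖ ≤ C * |c| := by
  classical
  have : LocallyConnectedSpace X := ChartedSpace.locallyConnectedSpace E X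
  obtain ⟨t, ⟨F⟩⟩ := exists_fam h
  -- bound on one set
  have hB : ∀ i : t, ∃ B : ℝ, 0 ≤ B ∧ ∀ x ∈ F.V i, ∀ y ∈ F.V i, |F.u i x - F.u i y| ≤ B := by
    intro i
    have h1 : ContinuousOn (F.u i) (closure (F.V i)) := fun x hx =>
      (F.prim i x hx).continuousAt.continuousWithinAt
    have h2 : IsCompact (closure (F.V i)) := isClosed_closure.isCompact
    obtain ⟨B, hB⟩ := h2.exists_bound_of_continuousOn h1
    refine ⟨|B| + |B|, by positivity, fun x hx y hy => ?_⟩
    have h3 := (hB x (subset_closure hx)).trans (le_abs_self B)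
    have h4 := (hB y (subset_closure hy)).trans (le_abs_self B)
    rw [Real.norm_eq_abs] at h3 h4
    have := abs_sub (F.u i x) (F.u i y)
    linarith
  choose B hB0 hB using hB
  have hloc : ∀ (i : t) (c : ℝ) (g : X → UnitAddCircle), IsDiffC g (c • θ) →
      ∀ x ∈ F.V i, ∀ y ∈ F.V i, ‖g x - g y‖ ≤ B i * |c| := by
    intro i c g hg x hx y hy
    have h1 : (fun z => g z - toC (c * F.u i z)) x = (fun z => g z - toC (c * F.u i z)) y := by
      exact eq_of_locally_const (w := fun z => g z - toC (c * F.u i z)) (F.conn i)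
        (fun z hz => hg.eventually_sub_toC (primAt_smul_fam (F.prim' hz) c)) hx hy
    have h2 : g x - g y = toC (c * (F.u i x - F.u i y)) := by
      have h3 : g x - toC (c * F.u i x) = g y - toC (c * F.u i y) := h1
      rw [mul_sub, toC_sub, sub_eq_sub_iff_add_eq_add]
      rw [sub_eq_sub_iff_add_eq_add] at h3
      rw [h3]
      abel
    rw [h2]
    refine (norm_toC_le _).trans ?_
    rw [abs_mul, mul_comm]
    exact mul_le_mul_of_nonneg_right (hB i x hx y hy) (abs_nonneg c)
  -- chains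
  have hchain : ∀ x y : X, ∃ C : ℝ, 0 ≤ C ∧ ∀ (c : ℝ) (g : X → UnitAddCircle),
      IsDiffC g (c • θ) → ‖g x - g y‖ ≤ C * |c| := by
    intro x y
    refine isPreconnected_univ.induction₂' (fun x y => ∃ C : ℝ, 0 ≤ C ∧ ∀ (c : ℝ)
      (g : X → UnitAddCircle), IsDiffC g (c • θ) → ‖g x - g y‖ ≤ C * |c|) (fun a _ => ?_)
      (fun a b c' _ _ _ h1 h2 => ?_) (mem_univ x) (mem_univ y)
    · obtain ⟨i, hi⟩ := F.cover a
      filter_upwards [mem_nhdsWithin_of_mem_nhds ((F.isOpen i).mem_nhds hi)] with b hb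
      exact ⟨⟨B i, hB0 i, fun c g hg => hloc i c g hg a hi b hb⟩,
        ⟨B i, hB0 i, fun c g hg => hloc i c g hg b hb a hi⟩⟩
    · obtain ⟨C1, h10, h1⟩ := h1
      obtain ⟨C2, h20, h2⟩ := h2
      refine ⟨C1 + C2, add_nonneg h10 h20, fun c g hg => ?_⟩
      have h3 : g a - g c' = (g a - g b) + (g b - g c') := by abel
      rw [h3, add_mul]
      exact (norm_add_le _ _).trans (add_le_add (h1 c g hg) (h2 c g hg))
  -- finitely many base points
  have hbase : ∀ i : t, ∃ C : ℝ, 0 ≤ C ∧ ∀ (c : ℝ) (g : X → UnitAddCircle),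
      IsDiffC g (c • θ) → ∀ x ∈ F.V i, ‖g x - g x₀‖ ≤ C * |c| := by
    intro i
    by_cases hne : (F.V i).Nonempty
    · obtain ⟨y, hy⟩ := hne
      obtain ⟨C1, h10, h1⟩ := hchain y x₀
      refine ⟨B i + C1, add_nonneg (hB0 i) h10, fun c g hg x hx => ?_⟩
      have h3 : g x - g x₀ = (g x - g y) + (g y - g x₀) := by abel
      rw [h3, add_mul]
      exact (norm_add_le _ _).trans (add_le_add (hloc i c g hg x hx y hy) (h1 c g hg))
    · exact ⟨0, le_rfl, fun c g hg x hx => absurd ⟨x, hx⟩ hne⟩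
  choose C hC0 hC using hbase
  refine ⟨∑ i, C i, Finset.sum_nonneg fun i _ => hC0 i, fun c g hg x => ?_⟩
  obtain ⟨i, hi⟩ := F.cover x
  refine (hC i c g hg x hi).trans ?_
  refine mul_le_mul_of_nonneg_right ?_ (abs_nonneg c)
  exact Finset.single_le_sum (f := C) (fun i _ => hC0 i) (Finset.mem_univ i)

/-- the group of all `c` such that `c • θ` is the differential of a circle valued map -/
def classGroup (θ : CovF E X) : AddSubgroup ℝ where
  carrier := {c | ∃ g : X → UnitAddCircle, IsDiffC g (c • θ)}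
  zero_mem' := by
    refine ⟨fun _ => 0, (isDiffC_const 0).congr_form fun y => ?_⟩
    change (0 : ℝ) • θ y = 0
    rw [zero_smul]
  add_mem' := by
    rintro a b ⟨g, hg⟩ ⟨g', hg'⟩
    refine ⟨_, (hg.add hg').congr_form fun y => ?_⟩
    change (a + b) • θ y = a • θ y + b • θ y
    rw [add_smul]
  neg_mem' := by
    rintro a ⟨g, hg⟩
    refine ⟨_, (hg.zsmul (-1)).congr_form fun y => ?_⟩
    change (-a) • θ y = ((-1 : ℤ) : ℝ) • (a • θ y)
    push_cast
    rw [smul_smul]
    congr 1
    ring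

theorem mem_classGroup {θ : CovF E X} {c : ℝ} :
    c ∈ classGroup θ ↔ ∃ g : X → UnitAddCircle, IsDiffC g (c • θ) := Iff.rfl

theorem mem_classGroup_of_exact {θ θ' : CovF E X} {g : X → UnitAddCircle} (hg : IsDiffC g θ')
    {c : ℝ} (hc : Exact (fun y => θ' y - c • θ y)) : c ∈ classGroup θ := by
  obtain ⟨v, hv⟩ := hc
  refine ⟨_, (hg.sub (isDiffC_toC hv)).congr_form fun y => ?_⟩
  change c • θ y = θ' y - (θ' y - c • θ y)
  abel

theorem Exact.of_smul {θ : CovF E X} {c : ℝ} (hc : c ≠ 0) (h : Exact (c • θ)) : Exact θ := by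
  refine (h.const_smul c⁻¹).congr fun y => ?_
  change θ y = c⁻¹ • (c • θ y)
  rw [smul_smul, inv_mul_cancel₀ hc, one_smul]

theorem exists_gen [IsManifold 𝓘(ℝ, E) ∞ X] [FiniteDimensional ℝ E] [CompactSpace X] [T2Space X] [ConnectedSpace X]
    {θ : CovF E X} (h : LocExact θ) (hne : ¬ Exact θ)
    (hone : ∀ θ' : CovF E X, LocExact θ' → ∃ c : ℝ, Exact (fun y => θ' y - c • θ y)) :
    ∃ a : ℝ, a ≠ 0 ∧ classGroup θ = AddSubgroup.closure {a} := by
  obtain ⟨x₀⟩ := (inferInstance : Nonempty X)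
  obtain ⟨C, hC0, hC⟩ := exists_osc_bound h x₀
  -- nontrivial
  obtain ⟨g, θ', hg, hθ'⟩ := exists_isDiffC_not_exact h hne
  obtain ⟨c, hc⟩ := hone θ' hg.locExact
  have hcA : c ∈ classGroup θ := mem_classGroup_of_exact hg hc
  have hc0 : c ≠ 0 := by
    rintro rfl
    apply hθ'
    refine hc.congr fun y => ?_
    rw [zero_smul, sub_zero]
  -- discrete
  have hdisc : ∀ a ∈ classGroup θ, |a| < 1 / (4 * (C + 1)) → a = 0 := by
    rintro a ⟨g, hg⟩ ha
    by_contra ha0
    apply hne
    refine Exact.of_smul ha0 ?_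
    have h1 : IsDiffC (fun x => g x - g x₀) (a • θ) := by
      refine (hg.sub (isDiffC_const (g x₀))).congr_form fun y => ?_
      change a • θ y = a • θ y - 0
      rw [sub_zero]
    refine h1.exact_of_norm_lt fun x => ?_
    have h2 : C * |a| < 1 / 4 := by
      have h3 : |a| * (4 * (C + 1)) < 1 := by
        rwa [lt_div_iff₀ (by positivity)] at ha
      nlinarith [abs_nonneg a]
    exact (hC a g hg x).trans_lt h2
  rcases (classGroup θ).dense_or_cyclic with hd | ⟨a, ha⟩
  · exfalso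
    obtain ⟨b, hb, hb'⟩ := hd.exists_mem_open (isOpen_Ioo (a := (0 : ℝ)) (b := 1 / (4 * (C + 1))))
      (nonempty_Ioo.2 (by positivity))
    have h1 := hdisc b hb (by rw [abs_of_pos hb'.1]; exact hb'.2)
    rw [h1] at hb'
    exact lt_irrefl _ hb'.1
  · refine ⟨a, ?_, ha⟩
    rintro rfl
    rw [ha, AddSubgroup.mem_closure_singleton] at hcA
    obtain ⟨n, hn⟩ := hcA
    apply hc0
    rw [← hn, smul_zero]

/-- dividing a circle valued map -/
theorem IsDiffC.div {θ : CovF E X} {h : X → UnitAddCircle} (hh : IsDiffC h θ) {k : ℤ}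
    (hk : k ≠ 0) {g : X → UnitAddCircle} (hg : Continuous g) (hgk : ∀ x, h x = k • g x) :
    IsDiffC g ((k : ℝ)⁻¹ • θ) := by
  intro x
  obtain ⟨v, hv, hhv⟩ := hh x
  have hk' : (k : ℝ) ≠ 0 := by exact_mod_cast hk
  obtain ⟨t, ht⟩ := surjective_toC (g x - toC ((k : ℝ)⁻¹ * v x))
  have hfin : {z : UnitAddCircle | k • z = 0}.Finite := by
    have h1 : {z : UnitAddCircle | k • z = 0} = {z : UnitAddCircle | k.natAbs • z = 0} := by
      ext z
      change k • z = 0 ↔ k.natAbs • z = 0
      rcases Int.natAbs_eq k with h | h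
      · conv_lhs => rw [h, natCast_zsmul]
      · conv_lhs => rw [h, neg_smul, natCast_zsmul, neg_eq_zero]
    rw [h1]
    exact AddCircle.finite_torsion (1 : ℝ) (Int.natAbs_pos.2 hk)
  have hmem : ∀ᶠ y in 𝓝 x, g y - toC ((k : ℝ)⁻¹ * v y) ∈ {z : UnitAddCircle | k • z = 0} := by
    filter_upwards [hhv] with y hy
    rw [smul_sub, ← hgk, hy, ← toC_zsmul, mul_inv_cancel_left₀ hk', sub_self]
  have hcont : ContinuousAt (fun y => g y - toC ((k : ℝ)⁻¹ * v y)) x :=
    hg.continuousAt.sub (continuous_toC.continuousAt.comp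
      (continuousAt_const.mul hv.continuousAt))
  have hev : ∀ᶠ y in 𝓝 x, g y - toC ((k : ℝ)⁻¹ * v y) = g x - toC ((k : ℝ)⁻¹ * v x) := by
    have hcl : IsClosed ({z : UnitAddCircle | k • z = 0} \ {g x - toC ((k : ℝ)⁻¹ * v x)}) :=
      (hfin.subset sdiff_subset).isClosed
    have h1 := hcont.eventually (hcl.isOpen_compl.mem_nhds (by simp))
    filter_upwards [h1, hmem] with y hy hy'
    by_contra hne
    exact hy ⟨hy', hne⟩
  refine ⟨fun y => (k : ℝ)⁻¹ * v y + t, ?_, ?_⟩
  · exact ((hv.const_mul (k : ℝ)⁻¹).congr_form (Eventually.of_forall fun _ => rfl)).add_const t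
  · filter_upwards [hev] with y hy
    rw [toC_add, ht, ← hy]
    abel

/-- **the primitive circle valued map** -/
theorem exists_primitive [IsManifold 𝓘(ℝ, E) ∞ X] [FiniteDimensional ℝ E] [CompactSpace X] [T2Space X] [ConnectedSpace X]
    {θ : CovF E X} (h : LocExact θ) (hne : ¬ Exact θ)
    (hone : ∀ θ' : CovF E X, LocExact θ' → ∃ c : ℝ, Exact (fun y => θ' y - c • θ y)) :
    ∃ (g : C(X, UnitAddCircle)) (θ₁ : CovF E X), IsDiffC g θ₁ ∧ ¬ Exact θ₁ ∧ Primitive g ∧
      (∀ θ' : CovF E X, LocExact θ' → ∃ c : ℝ, Exact (fun y => θ' y - c • θ₁ y)) ∧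
      ∀ (g' : X → UnitAddCircle) (θ' : CovF E X), IsDiffC g' θ' →
        ∃ (k : ℤ) (v : X → ℝ), (∀ x, PrimAt (fun y => θ' y - (k : ℝ) • θ₁ y) v x) ∧
          ∀ x, g' x = k • g x + toC (v x) := by
  obtain ⟨a, ha0, ha⟩ := exists_gen h hne hone
  have haA : a ∈ classGroup θ := by
    rw [ha]
    exact AddSubgroup.mem_closure_singleton_self a
  obtain ⟨g, hg⟩ := haA
  have hgne : ¬ Exact (a • θ) := fun h => hne (h.of_smul ha0)
  refine ⟨⟨g, hg.continuous⟩, a • θ, hg, hgne, ?_, ?_, ?_⟩
  · -- primitive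
    intro k g' hk
    by_cases hk0 : k = 0
    · exfalso
      apply hgne
      have h1 : IsDiffC g (0 : CovF E X) := by
        refine (isDiffC_const (E := E) (X := X) 0).congr fun y => ?_
        have := hk y
        rw [hk0, zero_smul] at this
        exact this
      exact exact_zero.congr fun y => hg.unique h1 y
    · have h1 := hg.div hk0 g'.continuous hk
      have h2 : (k : ℝ)⁻¹ * a ∈ classGroup θ := by
        refine ⟨g', h1.congr_form fun y => ?_⟩
        change ((k : ℝ)⁻¹ * a) • θ y = (k : ℝ)⁻¹ • (a • θ y)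
        rw [smul_smul]
      rw [ha, AddSubgroup.mem_closure_singleton] at h2
      obtain ⟨n, hn⟩ := h2
      have hk' : (k : ℝ) ≠ 0 := by exact_mod_cast hk0
      have h3 : ((n * k : ℤ) : ℝ) = 1 := by
        rw [zsmul_eq_mul] at hn
        have h4 : (n : ℝ) = (k : ℝ)⁻¹ := mul_right_cancel₀ ha0 hn
        push_cast
        rw [h4, inv_mul_cancel₀ hk']
      have h4 : k * n = 1 := by
        rw [mul_comm]
        exact_mod_cast h3
      exact Int.isUnit_iff.1 (IsUnit.of_mul_eq_one n h4)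
  · intro θ' hθ'
    obtain ⟨c, hc⟩ := hone θ' hθ'
    refine ⟨c * a⁻¹, hc.congr fun y => ?_⟩
    change θ' y - (c * a⁻¹) • (a • θ y) = θ' y - c • θ y
    rw [smul_smul, inv_mul_cancel_right₀ ha0]
  · intro g' θ' hg'
    obtain ⟨c, hc⟩ := hone θ' hg'.locExact
    have h1 := mem_classGroup_of_exact hg' hc
    rw [ha, AddSubgroup.mem_closure_singleton] at h1
    obtain ⟨k, hk⟩ := h1
    rw [zsmul_eq_mul] at hk
    obtain ⟨v, hv⟩ := hc
    -- the difference has zero differential
    have h2 : IsDiffC (fun x => g' x - k • g x - toC (v x)) (0 : CovF E X) := by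
      refine ((hg'.sub (hg.zsmul k)).sub (isDiffC_toC hv)).congr_form fun y => ?_
      change (0 : TangentSpace 𝓘(ℝ, E) y →L[ℝ] ℝ) =
        θ' y - (k : ℝ) • (a • θ y) - (θ' y - c • θ y)
      rw [smul_smul, hk, sub_self]
    obtain ⟨x₀⟩ := (inferInstance : Nonempty X)
    obtain ⟨t, ht⟩ := surjective_toC (g' x₀ - k • g x₀ - toC (v x₀))
    refine ⟨k, fun x => v x + t, fun x => ?_, fun x => ?_⟩
    · refine ((hv x).add_const t).congr_form (Eventually.of_forall fun y => ?_)
      change θ' y - (k : ℝ) • (a • θ y) = θ' y - c • θ y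
      rw [smul_smul, hk]
    · have h3 := eq_of_locally_const isPreconnected_univ
        (w := fun x => g' x - k • g x - toC (v x)) (fun z _ => h2.eventually_const z)
        (mem_univ x) (mem_univ x₀)
      have h4 : g' x - k • g x - toC (v x) = toC t := by
        rw [ht]
        exact h3
      rw [toC_add, ← h4]
      change g' x = k • g x + (toC (v x) + (g' x - k • g x - toC (v x)))
      abel

end

end Vale.Agent.P267.H158
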