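import Vale.Agent.P267.H158.H1

/-!
# P267, package COVER: instances and smoothness on the cyclic covers

`Cov h` and `CovM h m` carry the pulled back charts. In the preferred charts all natural maps
(`p`, `shift k`, `toM m`, `tower`, `covOfM`) have the identity as differential.
-/

open Set Topology Manifold Filter
open scoped ContDiff

namespace Vale.Agent.P267.H158

section general

variable {𝕜 : Type*} [NontriviallyNormedField 𝕜] {E : Type*} [NormedAddCommGroup E]
  [NormedSpace 𝕜 E] {H : Type*} [TopologicalSpace H] (I : ModelWithCorners 𝕜 E H)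
  {Y X : Type*} [TopologicalSpace Y] [TopologicalSpace X] [ChartedSpace H X] {p : Y → X}
  {E' : Type*} [NormedAddCommGroup E'] [NormedSpace 𝕜 E'] {H' : Type*}
  [TopologicalSpace H'] {I' : ModelWithCorners 𝕜 E' H'} {Z : Type*} [TopologicalSpace Z]
  [ChartedSpace H' Z]

/-- the preferred extended chart at `y` is the one at `p y` composed with `p` -/
theorem pull_extChartAt_coe (hp : IsLocalHomeomorph p) (y : Y) :
    letI := pullCS H hp
    (extChartAt I y : Y → E) = extChartAt I (p y) ∘ p := by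
  let _ := pullCS H hp
  change I ∘ (chartAt H (p y)) ∘ (branch hp y : Y → X) = I ∘ (chartAt H (p y)) ∘ p
  rw [branch_eq]

theorem pull_chartAt_coe (hp : IsLocalHomeomorph p) (y : Y) :
    letI := pullCS H hp
    (chartAt H y : Y → H) = chartAt H (p y) ∘ p := by
  let _ := pullCS H hp
  change (chartAt H (p y)) ∘ (branch hp y : Y → X) = (chartAt H (p y)) ∘ p
  rw [branch_eq]

/-- local inverse: on the source of the preferred chart at `y` -/
theorem pull_symm_extChartAt (hp : IsLocalHomeomorph p) (y : Y) :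
    letI := pullCS H hp
    ∀ z ∈ (extChartAt I y).target, p ((extChartAt I y).symm z) = (extChartAt I (p y)).symm z := by
  let _ := pullCS H hp
  intro z hz
  have h1 : (extChartAt I y).target =
      (((branch hp y).trans (chartAt H (p y))).extend I).target := rfl
  rw [h1, OpenPartialHomeomorph.extend_target] at hz
  obtain ⟨h2, h3⟩ := hz
  rw [mem_preimage, OpenPartialHomeomorph.trans_target] at h2
  have := OpenPartialHomeomorph.right_inv _ h2.2
  rw [branch_eq] at this
  exact this

theorem pull_hasMFDerivAt_iff (hp : IsLocalHomeomorph p) {g : Z → Y} {z : Z} {L : E' →L[𝕜] E} :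
    letI := pullCS H hp
    HasMFDerivAt I' I g z L ↔ ContinuousAt g z ∧ HasMFDerivAt I' I (p ∘ g) z L := by
  let _ := pullCS H hp
  have h1 : writtenInExtChartAt I' I z g = writtenInExtChartAt I' I z (p ∘ g) := by
    unfold writtenInExtChartAt
    rw [pull_extChartAt_coe I hp (g z)]
    rfl
  constructor
  · rintro ⟨h2, h3⟩
    rw [h1] at h3
    exact ⟨h2, ⟨hp.continuous.continuousAt.comp h2, h3⟩⟩
  · rintro ⟨h2, ⟨-, h3⟩⟩
    refine ⟨h2, ?_⟩
    rw [h1]
    exact h3

theorem pull_comp_hasMFDerivAt (hp : IsLocalHomeomorph p) {g : X → Z} {y : Y}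
    {L : E →L[𝕜] E'} (hg : HasMFDerivAt I I' g (p y) L) :
    letI := pullCS H hp
    HasMFDerivAt I I' (g ∘ p) y L := by
  let _ := pullCS H hp
  exact hg.comp y (pull_hasMFDerivAt I hp y)

end general

/-! ### the instances -/

section inst

variable {X : Type*} [TopologicalSpace X] {H : Type*} [TopologicalSpace H] [ChartedSpace H X]
  {h : C(X, UnitAddCircle)} {m : ℕ} [NeZero m]

noncomputable instance instChartedSpaceCov : ChartedSpace H (Cov h) :=
  pullCS H Cov.isLocalHomeomorph_p

noncomputable instance instChartedSpaceCovM : ChartedSpace H (CovM h m) :=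
  pullCS H CovM.isLocalHomeomorph_p

variable {𝕜 : Type*} [NontriviallyNormedField 𝕜] {E : Type*} [NormedAddCommGroup E]
  [NormedSpace 𝕜 E] (I : ModelWithCorners 𝕜 E H) {n : WithTop ℕ∞}

instance instIsManifoldCov [IsManifold I n X] : IsManifold I n (Cov h) :=
  pullCS_isManifold I Cov.isLocalHomeomorph_p n

instance instIsManifoldCovM [IsManifold I n X] : IsManifold I n (CovM h m) :=
  pullCS_isManifold I CovM.isLocalHomeomorph_p n

variable {E' : Type*} [NormedAddCommGroup E'] [NormedSpace 𝕜 E'] {H' : Type*}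
  [TopologicalSpace H'] {I' : ModelWithCorners 𝕜 E' H'} {Z : Type*} [TopologicalSpace Z]
  [ChartedSpace H' Z]

namespace Cov

theorem chartAt_coe (z : Cov h) : (chartAt H z : Cov h → H) = chartAt H (p z) ∘ p :=
  pull_chartAt_coe isLocalHomeomorph_p z

theorem extChartAt_coe (z : Cov h) :
    (extChartAt I z : Cov h → E) = extChartAt I (p z) ∘ p :=
  pull_extChartAt_coe I isLocalHomeomorph_p z

theorem p_extChartAt_symm (z : Cov h) {w : E} (hw : w ∈ (extChartAt I z).target) :
    p ((extChartAt I z).symm w) = (extChartAt I (p z)).symm w :=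
  pull_symm_extChartAt I isLocalHomeomorph_p z w hw

theorem hasMFDerivAt_p (z : Cov h) :
    HasMFDerivAt I I (p : Cov h → X) z (ContinuousLinearMap.id 𝕜 (TangentSpace I z)) :=
  pull_hasMFDerivAt I isLocalHomeomorph_p z

theorem mfderiv_p (z : Cov h) :
    mfderiv I I (p : Cov h → X) z = ContinuousLinearMap.id 𝕜 (TangentSpace I z) :=
  (hasMFDerivAt_p I z).mfderiv

theorem contMDiff_p : ContMDiff I I n (p : Cov h → X) := pull_contMDiff I isLocalHomeomorph_p n

theorem contMDiffAt_iff_p {g : Z → Cov h} {z : Z} :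
    ContMDiffAt I' I n g z ↔ ContinuousAt g z ∧ ContMDiffAt I' I n (p ∘ g) z :=
  pull_contMDiffAt_iff I isLocalHomeomorph_p

theorem contMDiff_iff_p {g : Z → Cov h} :
    ContMDiff I' I n g ↔ Continuous g ∧ ContMDiff I' I n (p ∘ g) :=
  pull_contMDiff_iff I isLocalHomeomorph_p

theorem comp_p_contMDiffAt_iff {g : X → Z} {z : Cov h} :
    ContMDiffAt I I' n (g ∘ p) z ↔ ContMDiffAt I I' n g (p z) :=
  pull_comp_contMDiffAt_iff I isLocalHomeomorph_p

theorem hasMFDerivAt_iff_p {g : Z → Cov h} {z : Z} {L : E' →L[𝕜] E} :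
    HasMFDerivAt I' I g z L ↔ ContinuousAt g z ∧ HasMFDerivAt I' I (p ∘ g) z L :=
  pull_hasMFDerivAt_iff I isLocalHomeomorph_p

theorem contMDiff_shift (k : ℤ) : ContMDiff I I n (shift k : Cov h → Cov h) :=
  pull_deck_contMDiff I isLocalHomeomorph_p n (shift k).continuous (p_comp_shift k)

theorem hasMFDerivAt_shift (k : ℤ) (z : Cov h) :
    HasMFDerivAt I I (shift k : Cov h → Cov h) z
      (ContinuousLinearMap.id 𝕜 (TangentSpace I z)) :=
  (pull_hasMFDerivAt_iff I isLocalHomeomorph_p).2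
    ⟨(shift k).continuous.continuousAt, hasMFDerivAt_p I z⟩

theorem contMDiff_γ : ContMDiff I I n (γ : Cov h → Cov h) := contMDiff_shift I 1

theorem hasMFDerivAt_γ (z : Cov h) :
    HasMFDerivAt I I (γ : Cov h → Cov h) z (ContinuousLinearMap.id 𝕜 (TangentSpace I z)) :=
  hasMFDerivAt_shift I 1 z

end Cov

namespace CovM

theorem chartAt_coe (z : CovM h m) : (chartAt H z : CovM h m → H) = chartAt H (p z) ∘ p :=
  pull_chartAt_coe isLocalHomeomorph_p z

theorem extChartAt_coe (z : CovM h m) :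
    (extChartAt I z : CovM h m → E) = extChartAt I (p z) ∘ p :=
  pull_extChartAt_coe I isLocalHomeomorph_p z

theorem p_extChartAt_symm (z : CovM h m) {w : E} (hw : w ∈ (extChartAt I z).target) :
    p ((extChartAt I z).symm w) = (extChartAt I (p z)).symm w :=
  pull_symm_extChartAt I isLocalHomeomorph_p z w hw

theorem hasMFDerivAt_p (z : CovM h m) :
    HasMFDerivAt I I (p : CovM h m → X) z (ContinuousLinearMap.id 𝕜 (TangentSpace I z)) :=
  pull_hasMFDerivAt I isLocalHomeomorph_p z

theorem contMDiff_p : ContMDiff I I n (p : CovM h m → X) :=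
  pull_contMDiff I isLocalHomeomorph_p n

theorem contMDiffAt_iff_p {g : Z → CovM h m} {z : Z} :
    ContMDiffAt I' I n g z ↔ ContinuousAt g z ∧ ContMDiffAt I' I n (p ∘ g) z :=
  pull_contMDiffAt_iff I isLocalHomeomorph_p

theorem contMDiff_iff_p {g : Z → CovM h m} :
    ContMDiff I' I n g ↔ Continuous g ∧ ContMDiff I' I n (p ∘ g) :=
  pull_contMDiff_iff I isLocalHomeomorph_p

theorem comp_p_contMDiffAt_iff {g : X → Z} {z : CovM h m} :
    ContMDiffAt I I' n (g ∘ p) z ↔ ContMDiffAt I I' n g (p z) :=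
  pull_comp_contMDiffAt_iff I isLocalHomeomorph_p

theorem hasMFDerivAt_iff_p {g : Z → CovM h m} {z : Z} {L : E' →L[𝕜] E} :
    HasMFDerivAt I' I g z L ↔ ContinuousAt g z ∧ HasMFDerivAt I' I (p ∘ g) z L :=
  pull_hasMFDerivAt_iff I isLocalHomeomorph_p

theorem contMDiff_tower {k l : ℕ} [NeZero l] (hn : l = m * k) :
    ContMDiff I I n (tower hn : CovM h l → CovM h m) :=
  (contMDiff_iff_p I).2 ⟨continuous_tower hn, contMDiff_p I⟩

end CovM

namespace Cov

theorem contMDiff_toM : ContMDiff I I n (toM m : Cov h → CovM h m) :=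
  (CovM.contMDiff_iff_p I).2 ⟨continuous_toM, contMDiff_p I⟩

theorem hasMFDerivAt_toM (z : Cov h) :
    HasMFDerivAt I I (toM m : Cov h → CovM h m) z
      (ContinuousLinearMap.id 𝕜 (TangentSpace I z)) :=
  (CovM.hasMFDerivAt_iff_p I).2 ⟨continuous_toM.continuousAt, hasMFDerivAt_p I z⟩

/-- a map defined on `CovM h m` is smooth if its composition with `toM` is -/
theorem comp_toM_contMDiffAt_iff {g : CovM h m → Z} {z : Cov h} :
    ContMDiffAt I I' n (g ∘ toM m) z ↔ ContMDiffAt I I' n g (toM m z) := by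
  constructor
  · intro hg
    obtain ⟨e, hz, he⟩ := isLocalHomeomorph_toM (m := m) z
    have h1 : toM m z ∈ e.target := by
      have := e.map_source hz
      rwa [← he] at this
    have h2 : e.symm (toM m z) = z := by
      rw [he]
      exact e.left_inv hz
    have h3 : ContMDiffAt I I n e.symm (toM m z) := by
      rw [contMDiffAt_iff_p]
      refine ⟨e.symm.continuousAt h1, ?_⟩
      have h4 : (p ∘ e.symm) =ᶠ[𝓝 (toM m z)] CovM.p := by
        filter_upwards [e.open_target.mem_nhds h1] with w hw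
        have h5 : toM m (e.symm w) = w := by
          rw [he]
          exact e.right_inv hw
        rw [Function.comp_apply, ← p_toM (m := m), h5]
      exact (CovM.contMDiff_p I).contMDiffAt.congr_of_eventuallyEq h4
    have h4 : ContMDiffAt I I' n ((g ∘ toM m) ∘ e.symm) (toM m z) := by
      refine ContMDiffAt.comp (toM m z) ?_ h3
      rwa [h2]
    refine h4.congr_of_eventuallyEq ?_
    filter_upwards [e.open_target.mem_nhds h1] with w hw
    have h5 : toM m (e.symm w) = w := by
      rw [he]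
      exact e.right_inv hw
    simp only [Function.comp_apply, h5]
  · intro hg
    exact hg.comp z (contMDiff_toM I).contMDiffAt

theorem contMDiff_covOfM : ContMDiff I I n (covOfM m : Cov h → Cov (CovM.cc h m)) :=
  (contMDiff_iff_p I).2 ⟨(covOfM m).continuous, contMDiff_toM I⟩

theorem hasMFDerivAt_covOfM (z : Cov h) :
    HasMFDerivAt I I (covOfM m : Cov h → Cov (CovM.cc h m)) z
      (ContinuousLinearMap.id 𝕜 (TangentSpace I z)) :=
  (hasMFDerivAt_iff_p I).2 ⟨(covOfM m).continuous.continuousAt, hasMFDerivAt_toM I z⟩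

theorem contMDiff_covOfM_symm :
    ContMDiff I I n ((covOfM m).symm : Cov (CovM.cc h m) → Cov h) := by
  refine (contMDiff_iff_p I).2 ⟨(covOfM m).symm.continuous, ?_⟩
  exact (CovM.contMDiff_p I).comp (contMDiff_p I)

end Cov

end inst

/-! ### smoothness of the height function -/

section height

variable {E : Type*} [NormedAddCommGroup E] [NormedSpace ℝ E]
variable {X : Type*} [TopologicalSpace X] [ChartedSpace E X] {h : C(X, UnitAddCircle)}
  {θ : CovF E X}

/-- the pull back of a covector field -/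
def Cov.pullF (h : C(X, UnitAddCircle)) (θ : CovF E X) : CovF E (Cov h) := fun z => θ (Cov.p z)

theorem Cov.primAt_pull {u : X → ℝ} {z : Cov h} (hu : PrimAt θ u (Cov.p z)) :
    PrimAt (Cov.pullF h θ) (u ∘ Cov.p) z := by
  have h1 : Tendsto (Cov.p : Cov h → X) (𝓝 z) (𝓝 (Cov.p z)) := Cov.continuous_p.continuousAt
  filter_upwards [h1.eventually hu] with w hw
  refine ⟨(Cov.comp_p_contMDiffAt_iff 𝓘(ℝ, E)).2 hw.1, ?_⟩
  exact pull_comp_hasMFDerivAt 𝓘(ℝ, E) Cov.isLocalHomeomorph_p hw.2

/-- the height function is a primitive of the pull back of the differential of `h` -/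
theorem Cov.primAt_f (hh : IsDiffC h θ) (z : Cov h) : PrimAt (Cov.pullF h θ) (Cov.f : Cov h → ℝ) z
    := by
  obtain ⟨u, hu, hhu⟩ := hh (Cov.p z)
  have h1 : Tendsto (Cov.p : Cov h → X) (𝓝 z) (𝓝 (Cov.p z)) := Cov.continuous_p.continuousAt
  have h2 := Cov.primAt_pull (h := h) hu
  have h3 : ∀ᶠ w in 𝓝 z, Cov.f w - (u ∘ Cov.p) w = Cov.f z - (u ∘ Cov.p) z := by
    refine eventually_sub_eq_of_toC_eq Cov.continuous_f.continuousAt h2.continuousAt ?_
    filter_upwards [h1.eventually hhu] with w hw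
    rw [Cov.toC_f, hw]
    rfl
  refine (h2.add_const (Cov.f z - (u ∘ Cov.p) z)).congr ?_
  filter_upwards [h3] with w hw
  linarith

theorem Cov.contMDiff_f (hh : IsDiffC h θ) :
    ContMDiff 𝓘(ℝ, E) 𝓘(ℝ, ℝ) ∞ (Cov.f : Cov h → ℝ) := fun z =>
  (Cov.primAt_f hh z).contMDiffAt

theorem Cov.hasMFDerivAt_f (hh : IsDiffC h θ) (z : Cov h) :
    HasMFDerivAt 𝓘(ℝ, E) 𝓘(ℝ, ℝ) (Cov.f : Cov h → ℝ) z (θ (Cov.p z)) :=
  (Cov.primAt_f hh z).hasMFDerivAt

theorem Cov.contMDiff_f' (hh : SmoothC (E := E) h) :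
    ContMDiff 𝓘(ℝ, E) 𝓘(ℝ, ℝ) ∞ (Cov.f : Cov h → ℝ) := by
  obtain ⟨θ, hθ⟩ := hh.exists_isDiffC
  exact Cov.contMDiff_f hθ

end height

end Vale.Agent.P267.H158
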