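import Vale.Agent.P267.H158.Cyc
import Mathlib.Geometry.Manifold.MFDeriv.SpecificFunctions
import Mathlib.Geometry.Manifold.MFDeriv.Atlas
import Mathlib.Geometry.Manifold.ContMDiff.NormedSpace
import Mathlib.Geometry.Manifold.PartitionOfUnity
import Mathlib.Analysis.Calculus.MeanValue
import Mathlib.Analysis.Normed.Group.AddCircle

/-!
# P267, package COVER, part CV4 (1): primitives of covector fields and smooth circle maps

`PrimAt θ u x`: near `x` the function `u` is smooth with differential `θ`.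
`LocExact θ` (closed one-forms), `Exact θ`, `IsDiffC g θ` (the circle valued map `g` is locally
the class of a smooth function with differential `θ`).
-/

open Set Topology Manifold Filter
open scoped ContDiff

namespace Vale.Agent.P267.H158

section

variable {E : Type*} [NormedAddCommGroup E] [NormedSpace ℝ E]
variable {X : Type*} [TopologicalSpace X] [ChartedSpace E X]

variable (E X) in
/-- a field of real covectors -/
abbrev CovF := ∀ x : X, TangentSpace 𝓘(ℝ, E) x →L[ℝ] ℝ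

/-- near `x` the function `u` is smooth with differential `θ` -/
def PrimAt (θ : CovF E X) (u : X → ℝ) (x : X) : Prop :=
  ∀ᶠ y in 𝓝 x, ContMDiffAt 𝓘(ℝ, E) 𝓘(ℝ, ℝ) ∞ u y ∧ HasMFDerivAt 𝓘(ℝ, E) 𝓘(ℝ, ℝ) u y (θ y)

/-- closed one-forms: locally the differential of a smooth function -/
def LocExact (θ : CovF E X) : Prop := ∀ x, ∃ u, PrimAt θ u x

/-- exact one-forms -/
def Exact (θ : CovF E X) : Prop := ∃ u, ∀ x, PrimAt θ u x

/-- the circle valued map `g` is smooth with differential `θ` -/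
def IsDiffC (g : X → UnitAddCircle) (θ : CovF E X) : Prop :=
  ∀ x, ∃ u, PrimAt θ u x ∧ ∀ᶠ y in 𝓝 x, g y = toC (u y)

/-- smooth circle valued maps -/
def SmoothC (g : X → UnitAddCircle) : Prop :=
  ∀ x, ∃ u : X → ℝ, (∀ᶠ y in 𝓝 x, ContMDiffAt 𝓘(ℝ, E) 𝓘(ℝ, ℝ) ∞ u y) ∧
    ∀ᶠ y in 𝓝 x, g y = toC (u y)

variable {θ θ' : CovF E X} {u v : X → ℝ} {x : X}

theorem PrimAt.eventually (h : PrimAt θ u x) : ∀ᶠ y in 𝓝 x, PrimAt θ u y :=
  eventually_eventually_nhds.2 h

theorem PrimAt.contMDiffAt (h : PrimAt θ u x) : ContMDiffAt 𝓘(ℝ, E) 𝓘(ℝ, ℝ) ∞ u x :=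
  h.self_of_nhds.1

theorem PrimAt.hasMFDerivAt (h : PrimAt θ u x) : HasMFDerivAt 𝓘(ℝ, E) 𝓘(ℝ, ℝ) u x (θ x) :=
  h.self_of_nhds.2

theorem PrimAt.continuousAt (h : PrimAt θ u x) : ContinuousAt u x := h.contMDiffAt.continuousAt

theorem PrimAt.congr (h : PrimAt θ u x) (e : v =ᶠ[𝓝 x] u) : PrimAt θ v x := by
  filter_upwards [h, e.eventually_nhds] with y hy hey
  exact ⟨hy.1.congr_of_eventuallyEq hey, hy.2.congr_of_eventuallyEq hey⟩

theorem PrimAt.congr_form (h : PrimAt θ u x) (e : ∀ᶠ y in 𝓝 x, θ' y = θ y) : PrimAt θ' u x := by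
  filter_upwards [h, e] with y hy hey
  refine ⟨hy.1, ?_⟩
  rw [hey]
  exact hy.2

theorem PrimAt.add (h : PrimAt θ u x) (h' : PrimAt θ' v x) :
    PrimAt (fun y => θ y + θ' y) (fun y => u y + v y) x := by
  filter_upwards [h, h'] with y hy hy'
  exact ⟨hy.1.add hy'.1, hy.2.add hy'.2⟩

theorem PrimAt.sub (h : PrimAt θ u x) (h' : PrimAt θ' v x) :
    PrimAt (fun y => θ y - θ' y) (fun y => u y - v y) x := by
  filter_upwards [h, h'] with y hy hy'
  exact ⟨hy.1.sub hy'.1, hy.2.sub hy'.2⟩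

theorem PrimAt.const_mul (h : PrimAt θ u x) (c : ℝ) :
    PrimAt (fun y => c • θ y) (fun y => c * u y) x := by
  filter_upwards [h] with y hy
  exact ⟨contMDiffAt_const.mul hy.1, hy.2.const_smul c⟩

theorem primAt_const (c : ℝ) (x : X) : PrimAt (0 : CovF E X) (fun _ => c) x := by
  refine Eventually.of_forall fun y => ⟨contMDiffAt_const, ?_⟩
  exact hasMFDerivAt_const c y

theorem PrimAt.add_const (h : PrimAt θ u x) (c : ℝ) : PrimAt θ (fun y => u y + c) x := by
  have := h.add (primAt_const (E := E) c x)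
  refine this.congr_form (Eventually.of_forall fun y => ?_)
  change θ y = θ y + 0
  rw [add_zero]

theorem PrimAt.sub_const (h : PrimAt θ u x) (c : ℝ) : PrimAt θ (fun y => u y - c) x := by
  have := h.add_const (-c)
  simpa [sub_eq_add_neg] using this

theorem PrimAt.unique_form (h : PrimAt θ u x) (h' : PrimAt θ' u x) :
    ∀ᶠ y in 𝓝 x, θ y = θ' y := by
  filter_upwards [h, h'] with y hy hy'
  exact hasMFDerivAt_unique hy.2 hy'.2

/-- a smooth function is a primitive of its differential -/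
theorem primAt_mfderiv (h : ∀ᶠ y in 𝓝 x, ContMDiffAt 𝓘(ℝ, E) 𝓘(ℝ, ℝ) ∞ u y) :
    PrimAt (fun y => mfderiv 𝓘(ℝ, E) 𝓘(ℝ, ℝ) u y) u x := by
  filter_upwards [h] with y hy
  exact ⟨hy, (hy.mdifferentiableAt (by simp)).hasMFDerivAt⟩

/-- a function with zero differential is locally constant -/
theorem eventually_const_of_primAt_zero [IsManifold 𝓘(ℝ, E) ∞ X]
    (h : PrimAt (0 : CovF E X) u x) : ∀ᶠ y in 𝓝 x, u y = u x := by
  -- read in the chart
  let e := extChartAt 𝓘(ℝ, E) x
  have he : Tendsto e.symm (𝓝 (e x)) (𝓝 x) := by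
    have := continuousAt_extChartAt_symm (I := 𝓘(ℝ, E)) x
    rwa [ContinuousAt, extChartAt_to_inv] at this
  have h1 : ∀ᶠ z in 𝓝 (e x), HasMFDerivAt 𝓘(ℝ, E) 𝓘(ℝ, ℝ) u (e.symm z)
      (0 : TangentSpace 𝓘(ℝ, E) (e.symm z) →L[ℝ] ℝ) := by
    have := he.eventually h
    filter_upwards [this] with z hz
    exact hz.2
  have h2 : ∀ᶠ z in 𝓝 (e x), z ∈ e.target := extChartAt_target_mem_nhds x
  obtain ⟨r, hr, hball⟩ := Metric.eventually_nhds_iff_ball.1 (h1.and h2)
  have h3 : ∀ z ∈ Metric.ball (e x) r, HasFDerivAt (u ∘ e.symm) (0 : E →L[ℝ] ℝ) z := by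
    intro z hz
    obtain ⟨h4, h5⟩ := hball z hz
    have h6 : MDifferentiableAt 𝓘(ℝ, E) 𝓘(ℝ, E) e.symm z := by
      have := contMDiffOn_extChartAt_symm (I := 𝓘(ℝ, E)) (n := ∞) x
      have h7 := (this z h5).contMDiffAt (by
        exact (isOpen_extChartAt_target (I := 𝓘(ℝ, E)) x).mem_nhds h5)
      exact h7.mdifferentiableAt (by simp)
    have h8 := h4.comp z h6.hasMFDerivAt
    have h9 := h8.hasFDerivAt
    convert! h9 using 1
  have h4 : ∀ z ∈ Metric.ball (e x) r, (u ∘ e.symm) z = (u ∘ e.symm) (e x) := by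
    intro z hz
    refine (convex_ball (e x) r).is_const_of_fderivWithin_eq_zero (𝕜 := ℝ)
      (fun w hw => (h3 w hw).differentiableAt.differentiableWithinAt) (fun w hw => ?_) hz
      (Metric.mem_ball_self hr)
    rw [fderivWithin_of_isOpen Metric.isOpen_ball hw, (h3 w hw).fderiv]
  have h5 : ∀ᶠ y in 𝓝 x, e y ∈ Metric.ball (e x) r :=
    (continuousAt_extChartAt (I := 𝓘(ℝ, E)) x).eventually (Metric.ball_mem_nhds _ hr)
  have h6 : ∀ᶠ y in 𝓝 x, y ∈ e.source := extChartAt_source_mem_nhds x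
  filter_upwards [h5, h6] with y hy hy'
  have := h4 (e y) hy
  rw [Function.comp_apply, Function.comp_apply, e.left_inv hy',
    e.left_inv (mem_extChartAt_source x)] at this
  exact this

theorem PrimAt.eventually_sub_eq [IsManifold 𝓘(ℝ, E) ∞ X] (h : PrimAt θ u x)
    (h' : PrimAt θ v x) : ∀ᶠ y in 𝓝 x, u y - v y = u x - v x := by
  refine eventually_const_of_primAt_zero (E := E) (u := fun y => u y - v y) ?_
  refine (h.sub h').congr_form (Eventually.of_forall fun y => ?_)
  change (0 : TangentSpace 𝓘(ℝ, E) y →L[ℝ] ℝ) = θ y - θ y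
  rw [sub_self]

/-! ### exact and closed forms -/

theorem Exact.locExact (h : Exact θ) : LocExact θ := fun x => ⟨h.choose, h.choose_spec x⟩

theorem Exact.add (h : Exact θ) (h' : Exact θ') : Exact (fun y => θ y + θ' y) := by
  obtain ⟨u, hu⟩ := h
  obtain ⟨v, hv⟩ := h'
  exact ⟨_, fun x => (hu x).add (hv x)⟩

theorem Exact.sub (h : Exact θ) (h' : Exact θ') : Exact (fun y => θ y - θ' y) := by
  obtain ⟨u, hu⟩ := h
  obtain ⟨v, hv⟩ := h'
  exact ⟨_, fun x => (hu x).sub (hv x)⟩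

theorem Exact.const_smul (h : Exact θ) (c : ℝ) : Exact (fun y => c • θ y) := by
  obtain ⟨u, hu⟩ := h
  exact ⟨_, fun x => (hu x).const_mul c⟩

theorem exact_zero : Exact (0 : CovF E X) := ⟨_, fun x => primAt_const 0 x⟩

theorem Exact.congr (h : Exact θ) (e : ∀ y, θ' y = θ y) : Exact θ' := by
  obtain ⟨u, hu⟩ := h
  exact ⟨u, fun x => (hu x).congr_form (Eventually.of_forall e)⟩

/-! ### circle valued maps -/

variable {g g' : X → UnitAddCircle}

theorem IsDiffC.locExact (h : IsDiffC g θ) : LocExact θ := fun x =>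
  ⟨(h x).choose, (h x).choose_spec.1⟩

theorem IsDiffC.smoothC (h : IsDiffC g θ) : SmoothC (E := E) g := by
  intro x
  obtain ⟨u, hu, hg⟩ := h x
  exact ⟨u, by filter_upwards [hu] with y hy using hy.1, hg⟩

theorem IsDiffC.continuous (h : IsDiffC g θ) : Continuous g := by
  rw [continuous_iff_continuousAt]
  intro x
  obtain ⟨u, hu, hg⟩ := h x
  exact (continuous_toC.continuousAt.comp hu.continuousAt).congr
    (by filter_upwards [hg] with y hy using hy.symm)

theorem SmoothC.continuous (h : SmoothC (E := E) g) : Continuous g := by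
  rw [continuous_iff_continuousAt]
  intro x
  obtain ⟨u, hu, hg⟩ := h x
  exact (continuous_toC.continuousAt.comp hu.self_of_nhds.continuousAt).congr
    (by filter_upwards [hg] with y hy using hy.symm)

theorem IsDiffC.add (h : IsDiffC g θ) (h' : IsDiffC g' θ') :
    IsDiffC (fun x => g x + g' x) (fun y => θ y + θ' y) := by
  intro x
  obtain ⟨u, hu, hg⟩ := h x
  obtain ⟨v, hv, hg'⟩ := h' x
  refine ⟨_, hu.add hv, ?_⟩
  filter_upwards [hg, hg'] with y hy hy'
  rw [hy, hy', toC_add]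

theorem IsDiffC.sub (h : IsDiffC g θ) (h' : IsDiffC g' θ') :
    IsDiffC (fun x => g x - g' x) (fun y => θ y - θ' y) := by
  intro x
  obtain ⟨u, hu, hg⟩ := h x
  obtain ⟨v, hv, hg'⟩ := h' x
  refine ⟨_, hu.sub hv, ?_⟩
  filter_upwards [hg, hg'] with y hy hy'
  rw [hy, hy', toC_sub]

theorem IsDiffC.zsmul (h : IsDiffC g θ) (k : ℤ) :
    IsDiffC (fun x => k • g x) (fun y => (k : ℝ) • θ y) := by
  intro x
  obtain ⟨u, hu, hg⟩ := h x
  refine ⟨_, hu.const_mul k, ?_⟩
  filter_upwards [hg] with y hy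
  rw [hy, toC_zsmul]

theorem isDiffC_const (a : UnitAddCircle) : IsDiffC (fun _ : X => a) (0 : CovF E X) := by
  obtain ⟨t, rfl⟩ := surjective_toC a
  exact fun x => ⟨_, primAt_const t x, Eventually.of_forall fun _ => rfl⟩

theorem isDiffC_toC (h : ∀ x, PrimAt θ u x) : IsDiffC (fun x => toC (u x)) θ :=
  fun x => ⟨u, h x, Eventually.of_forall fun _ => rfl⟩

theorem IsDiffC.congr_form (h : IsDiffC g θ) (e : ∀ y, θ' y = θ y) : IsDiffC g θ' := by
  intro x
  obtain ⟨u, hu, hg⟩ := h x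
  exact ⟨u, hu.congr_form (Eventually.of_forall e), hg⟩

theorem IsDiffC.congr (h : IsDiffC g θ) (e : ∀ y, g' y = g y) : IsDiffC g' θ := by
  have : g' = g := funext e
  rwa [this]

/-- two continuous real lifts of one circle valued map differ by a local constant -/
theorem eventually_sub_eq_of_toC_eq {u v : X → ℝ} (hu : ContinuousAt u x) (hv : ContinuousAt v x)
    (h : ∀ᶠ y in 𝓝 x, toC (u y) = toC (v y)) : ∀ᶠ y in 𝓝 x, u y - v y = u x - v x := by
  have h1 : ContinuousAt (fun y => u y - v y) x := hu.sub hv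
  have h2 : ∀ᶠ y in 𝓝 x, |(u y - v y) - (u x - v x)| < 1 := by
    filter_upwards [Metric.tendsto_nhds.1 h1 1 one_pos] with y hy
    rwa [Real.dist_eq] at hy
  obtain ⟨k, hk⟩ := toC_eq_iff.1 h.self_of_nhds
  filter_upwards [h, h2] with y hy hy'
  obtain ⟨j, hj⟩ := toC_eq_iff.1 hy
  have h3 : u y - v y = j := by linarith
  have h4 : u x - v x = k := by linarith
  rw [h3, h4] at hy' ⊢
  have h5 : |(j - k : ℤ)| < 1 := by
    have : |((j - k : ℤ) : ℝ)| < 1 := by push_cast; exact hy'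
    exact_mod_cast this
  have h6 : j - k = 0 := Int.abs_lt_one_iff.1 h5
  have h7 : j = k := by omega
  rw [h7]

/-- the differential of a circle valued map is unique -/
theorem IsDiffC.unique (h : IsDiffC g θ) (h' : IsDiffC g θ') (x : X) : θ x = θ' x := by
  obtain ⟨u, hu, hg⟩ := h x
  obtain ⟨v, hv, hg'⟩ := h' x
  have h1 : ∀ᶠ y in 𝓝 x, u y - v y = u x - v x := by
    refine eventually_sub_eq_of_toC_eq hu.continuousAt hv.continuousAt ?_
    filter_upwards [hg, hg'] with y hy hy'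
    rw [← hy, hy']
  have h2 : PrimAt θ' u x := by
    refine (hv.add_const (u x - v x)).congr ?_
    filter_upwards [h1] with y hy
    linarith
  exact (hu.unique_form h2).self_of_nhds

/-- every smooth circle valued map has a differential -/
theorem SmoothC.exists_isDiffC (h : SmoothC (E := E) g) : ∃ θ : CovF E X, IsDiffC g θ := by
  choose u hu hg using h
  refine ⟨fun x => mfderiv 𝓘(ℝ, E) 𝓘(ℝ, ℝ) (u x) x, fun x => ⟨u x, ?_, hg x⟩⟩
  refine (primAt_mfderiv (hu x)).congr_form ?_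
  filter_upwards [hu x, (hu x).eventually_nhds, (hg x).eventually_nhds] with y hy hyy hgy
  -- near `y` the lifts `u x` and `u y` differ by a constant
  have h1 : ∀ᶠ z in 𝓝 y, u y z - u x z = u y y - u x y := by
    refine eventually_sub_eq_of_toC_eq (hu y).self_of_nhds.continuousAt hy.continuousAt ?_
    filter_upwards [hg y, hgy] with z hz hz'
    rw [← hz, hz']
  have h2 : PrimAt (fun y => mfderiv 𝓘(ℝ, E) 𝓘(ℝ, ℝ) (u x) y) (u y) y := by
    refine ((primAt_mfderiv (u := u x) hyy).add_const (u y y - u x y)).congr ?_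
    filter_upwards [h1] with z hz
    linarith
  exact h2.hasMFDerivAt.mfderiv

end

end Vale.Agent.P267.H158
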