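import Mathlib.Geometry.Manifold.ContMDiff.Basic
import Mathlib.Geometry.Manifold.MFDeriv.Basic
import Mathlib.Geometry.Manifold.LocalDiffeomorph

/-!
# P267, package COVER, part CV1: pulling back a manifold structure along a local homeomorphism

`pullCS H hp` is the charted space structure on `Y` for a local homeomorphism `p : Y → X`; its
charts are `e.trans c`, `e` a local branch of `p`, `c` a chart of `X`. It works for every model
with corners and every regularity.
-/

open Set Topology Manifold
open scoped ContDiff

namespace Vale.Agent.P267.H158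

section charted

variable {Y X : Type*} [TopologicalSpace Y] [TopologicalSpace X] {p : Y → X}

/-- a local branch of `p` at `y` -/
noncomputable def branch (hp : IsLocalHomeomorph p) (y : Y) : OpenPartialHomeomorph Y X :=
  (hp y).choose

theorem mem_branch (hp : IsLocalHomeomorph p) (y : Y) : y ∈ (branch hp y).source :=
  (hp y).choose_spec.1

theorem branch_eq (hp : IsLocalHomeomorph p) (y : Y) : (branch hp y : Y → X) = p :=
  (hp y).choose_spec.2.symm

variable (H : Type*) [TopologicalSpace H] [ChartedSpace H X]

/-- the pulled back charted space structure -/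
@[reducible]
noncomputable def pullCS (hp : IsLocalHomeomorph p) : ChartedSpace H Y where
  atlas := {φ | ∃ (e : OpenPartialHomeomorph Y X) (c : OpenPartialHomeomorph X H),
    (e : Y → X) = p ∧ c ∈ atlas H X ∧ φ = e.trans c}
  chartAt y := (branch hp y).trans (chartAt H (p y))
  mem_chart_source y := by
    rw [OpenPartialHomeomorph.trans_source]
    refine ⟨mem_branch hp y, ?_⟩
    rw [mem_preimage, branch_eq]
    exact mem_chart_source H _
  chart_mem_atlas y := ⟨_, _, branch_eq hp y, chart_mem_atlas H _, rfl⟩

theorem pullCS_hasGroupoid (hp : IsLocalHomeomorph p) (G : StructureGroupoid H) [HasGroupoid X G]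
    [ClosedUnderRestriction G] : @HasGroupoid H _ Y _ (pullCS H hp) G := by
  let _ := pullCS H hp
  refine ⟨?_⟩
  rintro _ _ ⟨e, c, he, hc, rfl⟩ ⟨e', c', he', hc', rfl⟩
  have hG : c.symm ≫ₕ c' ∈ G := HasGroupoid.compatible hc hc'
  have key : ∀ y ∈ ((e.trans c).symm ≫ₕ (e'.trans c')).source,
      y ∈ c.target ∧ c.symm y ∈ e.target ∧ c.symm y ∈ c'.source := by
    intro y hy
    rw [OpenPartialHomeomorph.trans_source] at hy
    obtain ⟨h1, h2⟩ := hy
    rw [OpenPartialHomeomorph.symm_source, OpenPartialHomeomorph.trans_target] at h1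
    refine ⟨h1.1, h1.2, ?_⟩
    rw [mem_preimage, OpenPartialHomeomorph.trans_source] at h2
    have h3 := h2.2
    rw [mem_preimage, he', ← he] at h3
    rwa [OpenPartialHomeomorph.coe_trans_symm, Function.comp_apply, e.right_inv h1.2] at h3
  have h1 := G.restr_mem_of_eqOn (e := c.symm ≫ₕ c')
    (e' := (e.trans c).symm ≫ₕ (e'.trans c')) (s := ((e.trans c).symm ≫ₕ (e'.trans c')).source) hG
    (OpenPartialHomeomorph.open_source _) (fun y hy => ?_) (fun y hy => ?_)
  · rwa [OpenPartialHomeomorph.restr_eq_of_source_subset subset_rfl] at h1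
  · obtain ⟨-, h2, -⟩ := key y hy
    change c' (c.symm y) = c' (e' (e.symm (c.symm y)))
    rw [he', ← he, e.right_inv h2]
  · obtain ⟨h1, -, h3⟩ := key y hy.2
    rw [OpenPartialHomeomorph.trans_source]
    exact ⟨h1, h3⟩

end charted

section smooth

variable {𝕜 : Type*} [NontriviallyNormedField 𝕜] {E : Type*} [NormedAddCommGroup E]
  [NormedSpace 𝕜 E] {H : Type*} [TopologicalSpace H] (I : ModelWithCorners 𝕜 E H)
  {Y X : Type*} [TopologicalSpace Y] [TopologicalSpace X] [ChartedSpace H X] {p : Y → X}

theorem pullCS_isManifold (hp : IsLocalHomeomorph p) (n : WithTop ℕ∞) [IsManifold I n X] :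
    @IsManifold 𝕜 _ E _ _ H _ I n Y _ (pullCS H hp) := by
  let _ := pullCS H hp
  have := pullCS_hasGroupoid H hp (contDiffGroupoid n I)
  exact IsManifold.mk' I n Y

/-- `p` read in the preferred charts is the identity -/
theorem pull_written (hp : IsLocalHomeomorph p) (y : Y) :
    letI := pullCS H hp
    ∀ z ∈ (extChartAt I y).target, writtenInExtChartAt I I y p z = z := by
  let _ := pullCS H hp
  intro z hz
  have h1 : (extChartAt I y).target =
      (((branch hp y).trans (chartAt H (p y))).extend I).target := rfl
  rw [h1, OpenPartialHomeomorph.extend_target] at hz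
  obtain ⟨h2, h3⟩ := hz
  rw [mem_preimage, OpenPartialHomeomorph.trans_target] at h2
  have h4 : p ((branch hp y).symm ((chartAt H (p y)).symm (I.symm z))) =
      (chartAt H (p y)).symm (I.symm z) := by
    have := OpenPartialHomeomorph.right_inv _ h2.2
    rwa [branch_eq] at this
  change I (chartAt H (p y) (p ((branch hp y).symm ((chartAt H (p y)).symm (I.symm z))))) = z
  rw [h4, OpenPartialHomeomorph.right_inv _ h2.1, I.right_inv h3]

theorem pull_written_eventually (hp : IsLocalHomeomorph p) (y : Y) :
    letI := pullCS H hp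
    ∀ᶠ z in 𝓝[range I] (extChartAt I y y), writtenInExtChartAt I I y p z = z := by
  let _ := pullCS H hp
  filter_upwards [extChartAt_target_mem_nhdsWithin (I := I) y] with z hz
  exact pull_written I hp y z hz

theorem pull_hasMFDerivAt (hp : IsLocalHomeomorph p) (y : Y) :
    letI := pullCS H hp
    HasMFDerivAt I I p y (ContinuousLinearMap.id 𝕜 (TangentSpace I y)) := by
  let _ := pullCS H hp
  refine ⟨hp.continuous.continuousAt, ?_⟩
  have h1 : HasFDerivWithinAt (fun y : E => y) (ContinuousLinearMap.id 𝕜 E)
      (range I) (extChartAt I y y) := hasFDerivWithinAt_id _ _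
  refine h1.congr_of_eventuallyEq (pull_written_eventually I hp y) ?_
  exact pull_written I hp y _ (mem_extChartAt_target y)

theorem pull_mfderiv (hp : IsLocalHomeomorph p) (y : Y) :
    letI := pullCS H hp
    mfderiv I I p y = ContinuousLinearMap.id 𝕜 (TangentSpace I y) := by
  let _ := pullCS H hp
  exact (pull_hasMFDerivAt I hp y).mfderiv

theorem pull_contMDiff (hp : IsLocalHomeomorph p) (n : WithTop ℕ∞) :
    letI := pullCS H hp
    ContMDiff I I n p := by
  let _ := pullCS H hp
  intro y
  rw [contMDiffAt_iff]
  refine ⟨hp.continuous.continuousAt, ?_⟩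
  have h1 : ContDiffWithinAt 𝕜 n (fun y : E => y) (range I) (extChartAt I y y) :=
    contDiffWithinAt_id
  refine h1.congr_of_eventuallyEq (pull_written_eventually I hp y) ?_
  exact pull_written I hp y _ (mem_extChartAt_target y)

/-- local inverses of `p` are smooth -/
theorem pull_contMDiffAt_symm (hp : IsLocalHomeomorph p) (n : WithTop ℕ∞)
    {e : OpenPartialHomeomorph Y X} (he : (e : Y → X) = p) {x : X} (hx : x ∈ e.target) :
    letI := pullCS H hp
    ContMDiffAt I I n e.symm x := by
  let _ := pullCS H hp
  rw [contMDiffAt_iff]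
  refine ⟨e.symm.continuousAt hx, ?_⟩
  have hpx : p (e.symm x) = x := by rw [← he, e.right_inv hx]
  have h1 : ContDiffWithinAt 𝕜 n (fun y : E => y) (range I) (extChartAt I x x) :=
    contDiffWithinAt_id
  have h2 : ∀ᶠ z in 𝓝[range I] (extChartAt I x x),
      (extChartAt I (e.symm x) ∘ e.symm ∘ (extChartAt I x).symm) z = z := by
    have h4 : (extChartAt I x).symm ⁻¹' e.target ∈ 𝓝[range I] (extChartAt I x x) :=
      mem_nhdsWithin_of_mem_nhds (extChartAt_preimage_mem_nhds (e.open_target.mem_nhds hx))
    filter_upwards [extChartAt_target_mem_nhdsWithin (I := I) x, h4] with z hz hz'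
    change I (chartAt H (p (e.symm x)) ((branch hp (e.symm x)) (e.symm
      ((extChartAt I x).symm z)))) = z
    rw [branch_eq, ← he, e.right_inv hz', e.right_inv hx]
    exact (extChartAt I x).right_inv hz
  refine h1.congr_of_eventuallyEq h2 ?_
  exact h2.self_of_nhdsWithin (mem_range_self _)

variable {E' : Type*} [NormedAddCommGroup E'] [NormedSpace 𝕜 E'] {H' : Type*}
  [TopologicalSpace H'] {I' : ModelWithCorners 𝕜 E' H'} {Z : Type*} [TopologicalSpace Z]
  [ChartedSpace H' Z]

theorem pull_contMDiffAt_iff (hp : IsLocalHomeomorph p) {n : WithTop ℕ∞}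
    {g : Z → Y} {z : Z} :
    letI := pullCS H hp
    ContMDiffAt I' I n g z ↔ ContinuousAt g z ∧ ContMDiffAt I' I n (p ∘ g) z := by
  let _ := pullCS H hp
  constructor
  · intro h
    exact ⟨h.continuousAt, ((pull_contMDiff I hp n).contMDiffAt).comp z h⟩
  · rintro ⟨h1, h2⟩
    have he := branch_eq hp (g z)
    have h3 : p (g z) ∈ (branch hp (g z)).target := by
      have := (branch hp (g z)).map_source (mem_branch hp (g z))
      rwa [he] at this
    have h4 := (pull_contMDiffAt_symm I hp n he h3).comp z h2
    refine h4.congr_of_eventuallyEq ?_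
    have h5 : ∀ᶠ w in 𝓝 z, g w ∈ (branch hp (g z)).source :=
      h1.eventually ((branch hp (g z)).open_source.mem_nhds (mem_branch hp (g z)))
    filter_upwards [h5] with w hw
    have := (branch hp (g z)).left_inv hw
    rw [he] at this
    exact this.symm

theorem pull_contMDiff_iff (hp : IsLocalHomeomorph p) {n : WithTop ℕ∞} {g : Z → Y} :
    letI := pullCS H hp
    ContMDiff I' I n g ↔ Continuous g ∧ ContMDiff I' I n (p ∘ g) := by
  let _ := pullCS H hp
  constructor
  · intro h
    exact ⟨h.continuous, (pull_contMDiff I hp n).comp h⟩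
  · rintro ⟨h1, h2⟩ z
    exact (pull_contMDiffAt_iff I hp).2 ⟨h1.continuousAt, h2 z⟩

/-- a function on `X` pulls back to a smooth function iff it is smooth (locally) -/
theorem pull_comp_contMDiffAt_iff (hp : IsLocalHomeomorph p) {n : WithTop ℕ∞} {g : X → Z} {y : Y} :
    letI := pullCS H hp
    ContMDiffAt I I' n (g ∘ p) y ↔ ContMDiffAt I I' n g (p y) := by
  let _ := pullCS H hp
  constructor
  · intro h
    have he := branch_eq hp y
    have h3 : p y ∈ (branch hp y).target := by
      have := (branch hp y).map_source (mem_branch hp y)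
      rwa [he] at this
    have hy : (branch hp y).symm (p y) = y := by
      have := (branch hp y).left_inv (mem_branch hp y)
      rwa [he] at this
    have h4 : ContMDiffAt I I' n ((g ∘ p) ∘ (branch hp y).symm) (p y) := by
      refine ContMDiffAt.comp (p y) ?_ (pull_contMDiffAt_symm I hp n he h3)
      rwa [hy]
    refine h4.congr_of_eventuallyEq ?_
    filter_upwards [(branch hp y).open_target.mem_nhds h3] with w hw
    have := (branch hp y).right_inv hw
    rw [he] at this
    simp only [Function.comp_apply, this]
  · intro h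
    exact h.comp y (pull_contMDiff I hp n).contMDiffAt

/-- deck transformations are smooth -/
theorem pull_deck_contMDiff (hp : IsLocalHomeomorph p) (n : WithTop ℕ∞) {g : Y → Y}
    (hg : Continuous g) (hpg : p ∘ g = p) :
    letI := pullCS H hp
    ContMDiff I I n g := by
  let _ := pullCS H hp
  refine (pull_contMDiff_iff I hp).2 ⟨hg, ?_⟩
  rw [hpg]
  exact pull_contMDiff I hp n

end smooth

end Vale.Agent.P267.H158
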